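import Crest.Agent.R264.Cell.Dat

/-! Row 264, block Cell: generic lines crossing `{η = 0}` once. -/

set_option autoImplicit false
set_option linter.unusedSectionVars false
open Set Filter Topology Metric Complex

namespace Crest.Agent.R264

variable {E F : Type}
  [NormedAddCommGroup E] [NormedSpace ℂ E] [NormedSpace ℝ E] [IsScalarTower ℝ ℂ E] [FiniteDimensional ℂ E]
  [NormedAddCommGroup F] [NormedSpace ℂ F] [NormedSpace ℝ F] [IsScalarTower ℝ ℂ F] [FiniteDimensional ℂ F]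
  {n : ℕ} {X U : Set E} {π : E → F} {R r η : F → ℝ} {C W T : Set F} {v : F}

theorem line_mono {J : Type} {l : Filter J} {c : J → ℂ → F} {c₀ : ℂ → F} {θ : ℝ} (hθ : 0 < θ)
    (hd : ∀ᶠ j in l, DifferentiableOn ℂ (c j) (ball 0 (2 * θ)))
    (hd₀ : AnalyticOnNhd ℂ c₀ (ball 0 (2 * θ)))
    (hl : TendstoLocallyUniformlyOn c c₀ l (ball 0 (2 * θ))) (hη : AnalyticOnNhd ℝ η univ) (hW : IsOpen W)
    (h : ∀ t ∈ Icc (-θ) θ, c₀ t ∈ W ∧ 0 < fderiv ℝ η (c₀ t) (deriv c₀ t)) :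
    ∀ᶠ j in l, (∀ t ∈ Icc (-θ) θ, c j t ∈ W) ∧ StrictMonoOn (fun t : ℝ => η (c j t)) (Icc (-θ) θ) := by
  have hsub : ∀ t ∈ Icc (-θ) θ, (t : ℂ) ∈ ball (0 : ℂ) (2 * θ) := fun t ht => by
    rw [mem_ball_zero_iff, Complex.norm_real, Real.norm_eq_abs]
    linarith [abs_le.2 ht]
  have hK : IsCompact (((↑) : ℝ → ℂ) '' Icc (-θ) θ) := isCompact_Icc.image continuous_ofReal
  have hKs : ((↑) : ℝ → ℂ) '' Icc (-θ) θ ⊆ ball 0 (2 * θ) := by rintro _ ⟨t, ht, rfl⟩; exact hsub t ht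
  have u1 := (tendstoLocallyUniformlyOn_iff_forall_isCompact isOpen_ball).1 hl _ hKs hK
  have u2 := (tendstoLocallyUniformlyOn_iff_forall_isCompact isOpen_ball).1 (hl.deriv hd isOpen_ball) _ hKs hK
  have hcf : Continuous (fderiv ℝ η) := continuousOn_univ.1 hη.fderiv.continuousOn
  have hG : IsOpen {p : F × F | p.1 ∈ W ∧ 0 < fderiv ℝ η p.1 p.2} :=
    (hW.preimage continuous_fst).inter 
      (isOpen_lt continuous_const ((hcf.comp continuous_fst).clm_apply continuous_snd))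
  have hK' : IsCompact ((fun ζ => (c₀ ζ, deriv c₀ ζ)) '' (((↑) : ℝ → ℂ) '' Icc (-θ) θ)) :=
    hK.image_of_continuousOn ((hd₀.continuousOn.prodMk hd₀.deriv.continuousOn).mono hKs)
  obtain ⟨δ, hδ, hth⟩ := hK'.exists_thickening_subset_open hG (by
    rintro _ ⟨_, ⟨t, ht, rfl⟩, rfl⟩; exact h t ht)
  filter_upwards [hd, Metric.tendstoUniformlyOn_iff.1 u1 δ hδ, Metric.tendstoUniformlyOn_iff.1 u2 δ hδ]
    with j h1 h2 h3
  have key : ∀ t ∈ Icc (-θ) θ, c j t ∈ W ∧ 0 < fderiv ℝ η (c j t) (deriv (c j) t) := fun t ht =>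
    hth (a := (c j t, deriv (c j) t)) (mem_thickening_iff.2 ⟨_, ⟨_, ⟨t, ht, rfl⟩, rfl⟩, by
      rw [dist_comm, Prod.dist_eq]
      exact max_lt (h2 _ ⟨t, ht, rfl⟩) (h3 _ ⟨t, ht, rfl⟩)⟩)
  have hder : ∀ t ∈ Icc (-θ) θ, HasDerivAt (fun t : ℝ => η (c j t)) (fderiv ℝ η (c j t) (deriv (c j) t)) t := by
    intro t ht
    have h4 := (h1.differentiableAt (isOpen_ball.mem_nhds (hsub t ht))).hasDerivAt.scomp t
      Complex.ofRealCLM.hasDerivAt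
    simp only [ofRealCLM_apply, ofReal_one, one_smul] at h4
    exact (hη _ trivial).differentiableAt.hasFDerivAt.comp_hasDerivAt t h4
  exact ⟨fun t ht => (key t ht).1, strictMonoOn_of_deriv_pos (convex_Icc _ _)
    (fun t ht => (hder t ht).continuousAt.continuousWithinAt) fun t ht => by
      rw [(hder t (interior_subset ht)).deriv]; exact (key t (interior_subset ht)).2⟩

theorem cross (hπ : ContinuousOn π X) (hη : Continuous η) {𝒰 𝒰' : Set (Set E)}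
    (hU : ∀ U ∈ 𝒰, UpSet X π r η v W U) (hU' : ∀ U ∈ 𝒰', UpSet X π (fun q => -r q) η (-v) W U)
    (hc : ∀ x ∈ X, π x ∈ W → η (π x) = 0 → 0 < r (π x) → ∃ U ∈ 𝒰, x ∈ U)
    (hc' : ∀ x ∈ X, π x ∈ W → η (π x) = 0 → 0 < -r (π x) → ∃ U ∈ 𝒰', x ∈ U) {γ : ℝ → E} {t₁ : ℝ}
    (hγ : ContinuousOn γ (uIcc 0 t₁))
    (h : ∀ t ∈ uIcc 0 t₁, γ t ∈ Reg X π ∧ π (γ t) ∈ W ∧ π (γ t) ∉ W ∩ {q | η q = 0 ∧ r q = 0})
    (hi : InjOn (fun t => η (π (γ t))) (uIcc 0 t₁)) (hs : η (π (γ 0)) * η (π (γ t₁)) < 0) :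
    (∃ U ∈ 𝒰, γ 0 ∈ U ∧ γ t₁ ∈ U) ∨ ∃ U ∈ 𝒰', γ 0 ∈ U := by
  obtain ⟨t₀, ht₀, h0⟩ := intermediate_value_uIcc (f := fun t => η (π (γ t)))
    (hη.comp_continuousOn (hπ.comp hγ fun t ht => (h t ht).1.1)) (show (0 : ℝ) ∈ _ by
      rcases mul_neg_iff.1 hs with h | h
      · exact mem_uIcc.2 (Or.inr ⟨h.2.le, h.1.le⟩)
      · exact mem_uIcc.2 (Or.inl ⟨h.1.le, h.2.le⟩))
  have hr : r (π (γ t₀)) ≠ 0 := fun h' => (h t₀ ht₀).2.2 ⟨(h t₀ ht₀).2.1, h0, h'⟩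
  rcases hr.lt_or_gt with hr | hr
  · obtain ⟨U, hU₀, hx⟩ := hc' _ (h t₀ ht₀).1.1 (h t₀ ht₀).2.1 h0 (neg_pos.2 hr)
    exact Or.inr ⟨U, hU₀, (hU' U hU₀).conn isPreconnected_uIcc hγ (fun t ht => ⟨(h t ht).1, (h t ht).2.1,
      fun h' => by rw [hi ht ht₀ (h'.trans h0.symm)]; exact neg_pos.2 hr⟩) ht₀ hx 0 left_mem_uIcc⟩
  · obtain ⟨U, hU₀, hx⟩ := hc _ (h t₀ ht₀).1.1 (h t₀ ht₀).2.1 h0 hr
    have := (hU U hU₀).conn isPreconnected_uIcc hγ (fun t ht => ⟨(h t ht).1, (h t ht).2.1,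
      fun h' => by rw [hi ht ht₀ (h'.trans h0.symm)]; exact hr⟩) ht₀ hx
    exact Or.inl ⟨U, hU₀, this 0 left_mem_uIcc, this t₁ right_mem_uIcc⟩

theorem Small.of_bih (hX : Mfd n X) {Y S : Set F} {f : E → F} {g : F → E} (h : Bih X Y f g) (hS : Small Y S) :
    Small X (f ⁻¹' S) := by
  refine (hS.preimage hX h.af h.mf).mono fun x hx => ⟨hx.2, hx.1, fun c hc => ?_⟩
  have := h.symm.Dv_left (h.mf hx.2) hc
  rw [h.gf x hx.2] at this
  exact ⟨_, this.1, this.2⟩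

theorem small_bad (hX : Mfd n X) (hn : Module.finrank ℂ F = n) (hc : IsPreconnected X) (hπ : AnalyticOn ℂ π X)
    (hne : (Reg X π).Nonempty) {N : Set F} (hN : Small univ N) : Small X ((Reg X π)ᶜ ∪ π ⁻¹' N) := by
  rw [Reg_eq_Sub hX hn] at hne ⊢
  refine ((small_not_sub hX hc hπ hne).1.union (hN.preimage hX hπ (mapsTo_univ _ _))).mono fun x hx => ?_
  by_cases h : x ∈ Sub X π
  · exact Or.inr ⟨hx.2, hx.1.resolve_left (not_not.2 h), fun c _ => h.2 c⟩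
  · exact Or.inl h

theorem exists_line (hX : Mfd n X) {P : E → F} (hP : AnalyticOn ℂ P X) (hη : AnalyticOnNhd ℝ η univ) {y : E}
    (hy : y ∈ X) (h0 : η (P y) = 0) (hd : ∃ w ∈ Tan X y, fderiv ℝ η (P y) (Dv X P y w) ≠ 0) {O M S : Set E}
    (hO : O ∈ 𝓝[X] y) (hM : ∃ᶠ y' in 𝓝[X] y, ∀ᶠ y'' in 𝓝[X] y', y'' ∈ M) (hS : Small X S) :
    ∃ (k : ℂ → E) (θ t₁ : ℝ), 0 < θ ∧ t₁ ∈ Icc (-θ) θ ∧ AnalyticOnNhd ℂ k (ball 0 (2 * θ)) ∧
      (∀ ζ ∈ ball (0 : ℂ) (2 * θ), k ζ ∈ X ∧ k ζ ∈ O) ∧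
      (∀ t ∈ Icc (-θ) θ, k t ∉ S ∧ 0 < fderiv ℝ η (P (k t)) (deriv (fun ζ => P (k ζ)) t)) ∧
      k 0 ∈ M ∧ η (P (k 0)) * η (P (k t₁)) < 0 := by
  obtain ⟨h, Ψ, δ, W₁, -, hδ, ch, -, -, -, -, hy0⟩ := hX.ball hy univ_mem
  have hz : (0 : Fin n → ℂ) ∈ ball 0 δ := mem_ball_self hδ
  have hc : ∀ a ∈ ball (0 : Fin n → ℂ) δ, AnalyticAt ℂ (fun a => P (h a)) a := fun a ha =>
    (ch.an_iff ha).1 (hP _ (ch.hO a ha).1.1)
  have hcf : Continuous (fderiv ℝ η) := continuousOn_univ.1 hη.fderiv.continuousOn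
  obtain ⟨e, he⟩ : ∃ e, 0 < fderiv ℝ η (P (h 0)) (fderiv ℂ (fun a => P (h a)) 0 e) := by
    obtain ⟨w, hw, hd⟩ := hd
    rw [← hy0] at hw hd
    rw [(ch.tan hz).1] at hw
    obtain ⟨e, rfl⟩ := hw
    have := (fderiv_comp_param (f := P) (ch.ah 0 hz).differentiableAt
      ((isOpen_ball.eventually_mem hz).mono fun a ha => (ch.hO a ha).1.1)
      (hP.differentiableOn _ (ch.hO 0 hz).1.1) e).2.2
    rw [ContinuousLinearMap.coe_coe, ← this] at hd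
    rcases hd.lt_or_gt with h1 | h1
    · exact ⟨-e, by simpa using h1⟩
    · exact ⟨e, h1⟩
  have he0 : e ≠ 0 := by rintro rfl; simp at he
  have hG : ∀ᶠ a in 𝓝 (0 : Fin n → ℂ), 0 < fderiv ℝ η (P (h a)) (fderiv ℂ (fun a => P (h a)) a e) :=
    ((hcf.continuousAt.comp (hc 0 hz).continuousAt).clm_apply
      ((hc 0 hz).fderiv.continuousAt.clm_apply continuousAt_const)).eventually (lt_mem_nhds he)
  rw [← hy0, ← ch.map_nhds hz] at hO hM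
  obtain ⟨ε, hε, hV⟩ := Metric.eventually_nhds_iff_ball.1 (hG.and ((isOpen_ball.eventually_mem hz).and hO))
  have hφ : ∀ a ∈ ball (0 : Fin n → ℂ) ε, DifferentiableAt ℝ (fun a => η (P (h a))) a ∧
      0 < fderiv ℝ (fun a => η (P (h a))) a e := by
    intro a ha
    have := (hη _ trivial).differentiableAt.hasFDerivAt.comp a
      ((hc a (hV a ha).2.1).differentiableAt.hasFDerivAt.restrictScalars ℝ)
    refine ⟨this.differentiableAt, ?_⟩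
    rw [show (fun a => η (P (h a))) = η ∘ fun a => P (h a) from rfl, this.fderiv]
    exact (hV a ha).1
  set θ := ε / (4 * (‖e‖ + 1)) with hθ
  have hθ0 : 0 < θ := by positivity
  have hin : ∀ a ∈ ball (0 : Fin n → ℂ) (ε / 2), ∀ ζ : ℂ, ‖ζ‖ ≤ 2 * θ → a + ζ • e ∈ ball (0 : Fin n → ℂ) ε := by
    intro a ha ζ hζ
    rw [mem_ball_zero_iff] at ha ⊢
    have h1 : ‖ζ • e‖ ≤ ε / 2 := by
      rw [norm_smul]
      calc ‖ζ‖ * ‖e‖ ≤ 2 * θ * (‖e‖ + 1) := by gcongr; linarith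
        _ = ε / 2 := by rw [hθ]; field_simp; norm_num
    linarith [norm_add_le a (ζ • e)]
  have hsm : ∀ t : ℝ, (t : ℂ) • e = t • e := fun t => IsScalarTower.algebraMap_smul ℂ t e
  have hin' : ∀ a ∈ ball (0 : Fin n → ℂ) (ε / 2), ∀ t : ℝ, |t| ≤ θ → a + t • e ∈ ball (0 : Fin n → ℂ) ε := by
    intro a ha t ht
    rw [← hsm]
    exact hin a ha t (by rw [Complex.norm_real, Real.norm_eq_abs]; linarith)
  have hz2 : (0 : Fin n → ℂ) ∈ ball 0 (ε / 2) := mem_ball_self (by positivity)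
  have p1 : 0 < η (P (h (0 + θ • e))) := by
    have := lt_of_fderiv_pos hφ (q := 0) hθ0 fun t ht => hin' 0 hz2 t ((abs_of_nonneg ht.1).trans_le ht.2)
    rwa [hy0, h0] at this
  have p2 : η (P (h (0 + (-θ) • e))) < 0 := by
    have := lt_of_fderiv_pos hφ (q := 0 + (-θ) • e) hθ0 fun t ht => by
      rw [add_smul_add]; exact hin' 0 hz2 _ (abs_le.2 ⟨by linarith [ht.1], by linarith [ht.2]⟩)
    rwa [add_smul_add, neg_add_cancel, zero_smul, add_zero, hy0, h0] at this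
  have hct : ∀ t : ℝ, |t| ≤ θ → ContinuousAt (fun a => η (P (h (a + t • e)))) 0 := fun t ht =>
    (hφ _ (hin' 0 hz2 t ht)).1.continuousAt.comp_of_eq (f := fun a => a + t • e) (by fun_prop) rfl
  have hV₁ := ((hct θ (abs_of_pos hθ0).le).eventually (lt_mem_nhds p1)).and
    (((hct (-θ) (by rw [abs_neg, abs_of_pos hθ0])).eventually (gt_mem_nhds p2)).and
      (isOpen_ball.eventually_mem hz2))
  obtain ⟨a₁, h1, h2⟩ := ((frequently_map.1 hM).and_eventually hV₁.eventually_nhds).exists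
  have ha₁ := h2.self_of_nhds.2.2
  have hsub : ball (0 : Fin n → ℂ) (ε / 2) ⊆ ball 0 ε := ball_subset_ball (by linarith)
  rw [← ch.map_nhds (hV a₁ (hsub ha₁)).2.1, eventually_map] at h1
  obtain ⟨a₂, h3, h4⟩ : ∃ a₂, η (P (h a₂)) ≠ 0 ∧ ∀ᶠ a in 𝓝 a₂, h a ∈ M ∧ 0 < η (P (h (a + θ • e))) ∧
      η (P (h (a + (-θ) • e))) < 0 ∧ a ∈ ball (0 : Fin n → ℂ) (ε / 2) := by
    by_cases h5 : η (P (h a₁)) = 0
    · obtain ⟨s, h6, h7⟩ := ((seg_small (h1.and h2).eventually_nhds e).and self_mem_nhdsWithin).exists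
      have h7' : 0 < s := h7
      refine ⟨a₁ + s • e, ?_, h6 s (abs_of_pos h7').le⟩
      have := lt_of_fderiv_pos hφ (q := a₁) h7' fun t ht =>
        hsub (h6 t ((abs_of_nonneg ht.1).trans_le ht.2)).self_of_nhds.2.2.2
      rw [h5] at this
      exact this.ne'
    · exact ⟨a₁, h5, h1.and h2⟩
  have hS' : Small (ball (0 : Fin n → ℂ) δ) (h ⁻¹' S) :=
    Small.of_bih (Mfd.of_isOpen isOpen_ball) ch.bih (hS.inter_open ch.oW)
  obtain ⟨a, h5, h6, h7⟩ := (hS'.avoid isOpen_ball he0).inter_nhds_nonempty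
    (((hφ a₂ (hsub h4.self_of_nhds.2.2.2)).1.continuousAt.eventually_ne h3).and h4)
  obtain ⟨h8, h9, h10, h11⟩ := h7
  have hb : ∀ ζ ∈ ball (0 : ℂ) (2 * θ), a + ζ • e ∈ ball (0 : Fin n → ℂ) ε := fun ζ hζ =>
    hin a h11 ζ (mem_ball_zero_iff.1 hζ).le
  have hlin : ∀ ζ : ℂ, HasDerivAt (fun ζ : ℂ => a + ζ • e) e ζ := fun ζ => by
    simpa using ((hasDerivAt_id ζ).smul_const e).const_add a
  obtain ⟨t₁, ht₁, hs⟩ : ∃ t₁ ∈ Icc (-θ) θ, η (P (h a)) * η (P (h (a + t₁ • e))) < 0 := by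
    rcases h6.lt_or_gt with h | h
    · exact ⟨θ, right_mem_Icc.2 (by linarith), mul_neg_of_neg_of_pos h h9⟩
    · exact ⟨-θ, left_mem_Icc.2 (by linarith), mul_neg_of_pos_of_neg h h10⟩
  refine ⟨fun ζ => h (a + ζ • e), θ, t₁, hθ0, ht₁, fun ζ hζ => ?_,
    fun ζ hζ => ⟨(ch.hO _ (hV _ (hb ζ hζ)).2.1).1.1, (hV _ (hb ζ hζ)).2.2⟩, fun t ht => ⟨fun h => ?_, ?_⟩,
    by simpa using h8, by simpa only [zero_smul, add_zero, hsm] using hs⟩
  · exact (ch.ah _ (hV _ (hb ζ hζ)).2.1).comp_of_eq (f := fun ζ : ℂ => a + ζ • e) (by fun_prop) rfl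
  · simp only [hsm] at h
    exact h5 t ⟨h, (hV _ (hin' a h11 t (abs_le.2 ht))).2.1⟩
  · have h12 := hV _ (hin' a h11 t (abs_le.2 ht))
    rw [← hsm] at h12
    have h13 := ((hc _ h12.2.1).differentiableAt.hasFDerivAt.comp_hasDerivAt (t : ℂ) (hlin t)).deriv
    rw [show (fun ζ : ℂ => P (h (a + ζ • e))) = (fun a => P (h a)) ∘ fun ζ : ℂ => a + ζ • e from rfl, h13]
    exact h12.1

end Crest.Agent.R264
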