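import Crest.Agent.R264.Base.Rem
import Crest.Agent.R264.Base.Top

/-! Row 264, block Cell: boxes foliated by the lines `q + ℝ v`. -/

set_option autoImplicit false
set_option linter.unusedSectionVars false
open Set Filter Topology Metric Complex

namespace Crest.Agent.R264

variable {F : Type}
  [NormedAddCommGroup F] [NormedSpace ℂ F] [NormedSpace ℝ F] [IsScalarTower ℝ ℂ F] [FiniteDimensional ℂ F]

/-- the local cell structure of `{R = 0}` at `q` -/
def CellAt (R r η : F → ℝ) (C : Set F) (v q : F) : Prop :=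
  R q = 0 → (η q = 0 → r q = 0) ∧ (η q ≠ 0 → q ∉ C ∧ ∃ r' : F → ℝ,
    AnalyticAt ℝ r' q ∧ fderiv ℝ r' q v ≠ 0 ∧ ∀ᶠ q' in 𝓝 q, (R q' = 0 ↔ r' q' = 0))

/-- a box `W` with top slab `T` -/
structure Box (R r η : F → ℝ) (C : Set F) (v : F) (W T : Set F) : Prop where
  oW : IsOpen W
  oT : IsOpen T
  TW : T ⊆ W
  sl : ∃ T', IsOpen T' ∧ Convex ℝ T' ∧ T'.Nonempty ∧ T ⊆ T' ∧ ∀ q ∈ T', R q ≠ 0
  conv : ∀ q ∈ W, ∀ s : ℝ, q + s • v ∈ W → ∀ t ∈ uIcc 0 s, q + t • v ∈ W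
  up : ∀ q ∈ W, ∃ s : ℝ, 0 ≤ s ∧ q + s • v ∈ T
  Tup : ∀ q ∈ T, ∀ s : ℝ, 0 ≤ s → q + s • v ∈ W → q + s • v ∈ T
  mono : ∀ q ∈ W, ∀ s : ℝ, 0 < s → q + s • v ∈ W → r q < r (q + s • v)
  hit : ∀ q ∈ W, ∃ s : ℝ, q + s • v ∈ W ∧ r (q + s • v) = 0
  inv : ∀ q (s : ℝ), η (q + s • v) = η q
  cη : Continuous η
  anr : AnalyticOnNhd ℝ r W
  dr : ∀ q ∈ W, fderiv ℝ r q ≠ 0
  rR : ∀ q ∈ W, r q = 0 → R q = 0
  loc : ∀ q ∈ W, CellAt R r η C v q
  cp : IsPreconnected (W ∩ {q | 0 < η q})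
  cm : IsPreconnected (W ∩ {q | 0 < -η q})
  dn : ∀ q ∈ W, q ∈ closure {q | η q ≠ 0}

variable {R r η : F → ℝ} {C W T : Set F} {v z : F}

theorem CellAt.neg {q : F} (h : CellAt R r η C v q) : CellAt R (fun q => -r q) η C (-v) q := by
  intro h0
  refine ⟨fun h1 => neg_eq_zero.2 ((h h0).1 h1), fun h1 => ?_⟩
  obtain ⟨h2, r', h3, h4, h5⟩ := (h h0).2 h1
  exact ⟨h2, r', h3, by rw [map_neg]; exact neg_ne_zero.2 h4, h5⟩

theorem add_smul_add (q v : F) (s t : ℝ) : q + s • v + t • v = q + (s + t) • v := by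
  rw [add_smul, add_assoc]

theorem lt_of_fderiv_pos {U : Set F} (hU : ∀ q ∈ U, DifferentiableAt ℝ r q ∧ 0 < fderiv ℝ r q v) {q : F}
    {s : ℝ} (hs : 0 < s) (h : ∀ t ∈ Icc 0 s, q + t • v ∈ U) : r q < r (q + s • v) := by
  have hd : ∀ t ∈ Icc 0 s, HasDerivAt (fun t : ℝ => r (q + t • v)) (fderiv ℝ r (q + t • v) v) t := by
    intro t ht
    have h1 : HasDerivAt (fun t : ℝ => q + t • v) v t := by
      simpa using ((hasDerivAt_id t).smul_const v).const_add q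
    exact (hU _ (h t ht)).1.hasFDerivAt.comp_hasDerivAt t h1
  have := strictMonoOn_of_deriv_pos (convex_Icc 0 s)
    (fun t ht => (hd t ht).continuousAt.continuousWithinAt) (fun t ht => by
      rw [(hd t (interior_subset ht)).deriv]
      exact (hU _ (h t (interior_subset ht))).2) (left_mem_Icc.2 hs.le) (right_mem_Icc.2 hs.le) hs
  simpa using this

theorem box_aux {lam : F →L[ℝ] ℝ} (hl : lam v = 1) {δ ρ : ℝ} (hδ : 0 < δ) (hρ : 0 < ρ) {U B : Set F}
    (hU : ∀ q ∈ U, AnalyticAt ℝ r q ∧ 0 < fderiv ℝ r q v ∧ (r q = 0 → R q = 0) ∧ CellAt R r η C v q)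
    (hUm : ∀ w ∈ ball z ρ, ∀ s : ℝ, |s| ≤ δ → w + s • v ∈ U)
    (htop : ∀ w ∈ ball z ρ, ∀ s ∈ Icc (δ / 2) δ, R (w + s • v) ≠ 0 ∧ 0 < r (w + s • v))
    (hbot : ∀ w ∈ ball z ρ, ∀ s ∈ Icc (δ / 2) δ, r (w + (-s) • v) < 0)
    (hB : IsOpen B) (hBρ : ∀ b ∈ B, b - lam (b - z) • v ∈ ball z ρ)
    (hinv : ∀ q (s : ℝ), η (q + s • v) = η q) (hη : Continuous η)
    (hp : IsPreconnected (B ∩ {q | 0 < η q})) (hm : IsPreconnected (B ∩ {q | 0 < -η q}))
    (hd : ∀ q ∈ B, q ∈ closure {q | η q ≠ 0})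
    (hW : ∀ q, q ∈ W ↔ |lam (q - z)| < δ ∧ ∃ s : ℝ, q + s • v ∈ B) :
    Box R r η C v W (W ∩ {q | δ / 2 < lam (q - z)}) := by
  have hlam : ∀ q (s : ℝ), lam (q + s • v - z) = lam (q - z) + s := by
    intro q s
    rw [add_sub_right_comm, map_add, map_smul, hl, smul_eq_mul, mul_one]
  have hcl : Continuous fun q => lam (q - z) := by fun_prop
  have hproj : ∀ q ∈ W, q - lam (q - z) • v ∈ ball z ρ := by
    intro q hq
    obtain ⟨-, s, hs⟩ := (hW q).1 hq
    have := hBρ _ hs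
    rwa [hlam, add_smul, add_sub_add_right_eq_sub] at this
  have hWU : ∀ q ∈ W, q ∈ U := by
    intro q hq
    simpa using hUm _ (hproj q hq) _ ((hW q).1 hq).1.le
  have hmove : ∀ q ∈ W, ∀ t : ℝ, |lam (q - z) + t| < δ → q + t • v ∈ W := by
    intro q hq t ht
    obtain ⟨-, s, hs⟩ := (hW q).1 hq
    refine (hW _).2 ⟨by rwa [hlam], s - t, ?_⟩
    rwa [add_smul_add, add_sub_cancel]
  have hoW : IsOpen W := by
    have : W = {q | |lam (q - z)| < δ} ∩ ⋃ s : ℝ, (fun q => q + s • v) ⁻¹' B := by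
      ext q; simp [hW]
    rw [this]
    exact (isOpen_lt (by fun_prop) continuous_const).inter
      (isOpen_iUnion fun s => hB.preimage (by fun_prop))
  have hconv : ∀ q ∈ W, ∀ s : ℝ, q + s • v ∈ W → ∀ t ∈ uIcc 0 s, q + t • v ∈ W := by
    intro q hq s hs t ht
    have h1 := abs_lt.1 ((hW q).1 hq).1
    have h2 := abs_lt.1 ((hW _).1 hs).1
    rw [hlam] at h2
    refine hmove q hq t (abs_lt.2 ?_)
    rcases mem_uIcc.1 ht with h | h <;> constructor <;> linarith [h.1, h.2]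
  have hside : ∀ P : F → Prop, (∀ q (s : ℝ), P (q + s • v) ↔ P q) → IsPreconnected (B ∩ {q | P q}) →
      IsPreconnected (W ∩ {q | P q}) := by
    intro P hP hc
    have : W ∩ {q | P q} = (fun p : ℝ × F => p.2 + (p.1 - lam (p.2 - z)) • v) ''
        (Ioo (-δ) δ ×ˢ (B ∩ {q | P q})) := by
      ext q
      constructor
      · rintro ⟨hq, hPq⟩
        obtain ⟨h1, s, hs⟩ := (hW q).1 hq
        refine ⟨(lam (q - z), q + s • v), ⟨abs_lt.1 h1, hs, (hP q s).2 hPq⟩, ?_⟩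
        simp only
        rw [hlam, add_smul_add]; simp
      · rintro ⟨⟨s, b⟩, ⟨h1, h2, h3⟩, rfl⟩
        refine ⟨(hW _).2 ⟨?_, -(s - lam (b - z)), ?_⟩, (hP _ _).2 h3⟩
        · simp only
          rw [hlam, add_sub_cancel]; exact abs_lt.2 h1
        · simp only
          rw [add_smul_add]; simpa using h2
    rw [this]
    exact (isPreconnected_Ioo.prod hc).image _ (by fun_prop)
  have hcont : ∀ q ∈ W, ∀ a b : ℝ, q + a • v ∈ W → q + b • v ∈ W → a ≤ b →
      ContinuousOn (fun t : ℝ => r (q + t • v)) (Icc a b) := by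
    intro q _ a b ha hb hab t ht
    have h1 : q + t • v ∈ W := by
      have := hconv _ ha (b - a) (by rwa [add_smul_add, add_sub_cancel]) (t - a)
        (mem_uIcc.2 (Or.inl ⟨by linarith [ht.1], by linarith [ht.2]⟩))
      rwa [add_smul_add, add_sub_cancel] at this
    exact ((hU _ (hWU _ h1)).1.continuousAt.comp_of_eq (f := fun t : ℝ => q + t • v)
      (by fun_prop) rfl).continuousWithinAt
  refine ⟨hoW, hoW.inter (isOpen_lt continuous_const hcl), inter_subset_left, ?_, hconv, ?_, ?_, ?_, ?_,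
    hinv, hη, fun q hq => (hU q (hWU q hq)).1, fun q hq h => ?_, fun q hq => (hU q (hWU q hq)).2.2.1,
    fun q hq => (hU q (hWU q hq)).2.2.2, hside _ (fun q s => by rw [hinv]) hp,
    hside _ (fun q s => by rw [hinv]) hm, ?_⟩
  · refine ⟨(fun q => lam (q - z)) ⁻¹' Ioo (δ / 2) δ ∩ (fun q => q - lam (q - z) • v) ⁻¹' ball z ρ,
      (isOpen_Ioo.preimage hcl).inter (isOpen_ball.preimage (by fun_prop)), ?_,
      ⟨z + (3 * δ / 4) • v, ?_, ?_⟩, fun q hq => ⟨⟨hq.2, (abs_lt.1 ((hW q).1 hq.1).1).2⟩, hproj q hq.1⟩,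
      fun q hq => ?_⟩
    · intro x hx y hy a b ha hb hab
      have e1 : lam (a • x + b • y - z) = a * lam (x - z) + b * lam (y - z) := by
        have : a • x + b • y - z = a • (x - z) + b • (y - z) := by
          rw [smul_sub, smul_sub, sub_add_sub_comm, ← add_smul, hab, one_smul]
        rw [this, map_add, map_smul, map_smul, smul_eq_mul, smul_eq_mul]
      refine ⟨?_, ?_⟩
      · rw [mem_preimage, e1]
        exact convex_Ioo _ _ hx.1 hy.1 ha hb hab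
      · have := convex_ball z ρ hx.2 hy.2 ha hb hab
        rw [mem_preimage, e1]
        convert this using 1
        simp only [smul_sub, add_smul, smul_smul]
        abel
    · rw [mem_preimage, hlam, sub_self, map_zero, zero_add]
      constructor <;> linarith
    · rw [mem_preimage, hlam, sub_self, map_zero, zero_add, add_sub_cancel_right]
      exact mem_ball_self hρ
    · simpa using (htop _ hq.2 _ ⟨hq.1.1.le, hq.1.2.le⟩).1
  · intro q hq
    have h1 := abs_lt.1 ((hW q).1 hq).1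
    by_cases h : δ / 2 < lam (q - z)
    · exact ⟨0, le_rfl, by rw [zero_smul, add_zero]; exact ⟨hq, h⟩⟩
    · refine ⟨3 * δ / 4 - lam (q - z), by linarith, hmove q hq _ (abs_lt.2 ⟨by linarith, by linarith⟩), ?_⟩
      rw [mem_ofPred_eq, hlam]; linarith
  · intro q hq s hs h
    refine ⟨h, ?_⟩
    have := hq.2
    rw [mem_ofPred_eq] at this ⊢
    rw [hlam]; linarith
  · intro q hq s hs h
    exact lt_of_fderiv_pos (U := U) (fun q hq => ⟨(hU q hq).1.differentiableAt, (hU q hq).2.1⟩) hs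
      fun t ht => hWU _ (hconv q hq s h t (mem_uIcc.2 (Or.inl ht)))
  · intro q hq
    have ha : q + (-(3 * δ / 4) - lam (q - z)) • v ∈ W := hmove q hq _ (abs_lt.2 ⟨by linarith, by linarith⟩)
    have hb : q + (3 * δ / 4 - lam (q - z)) • v ∈ W := hmove q hq _ (abs_lt.2 ⟨by linarith, by linarith⟩)
    have e : ∀ s : ℝ, q - lam (q - z) • v + s • v = q + (s - lam (q - z)) • v := by
      intro s; rw [sub_smul]; abel
    have h1 := (htop _ (hproj q hq) (3 * δ / 4) ⟨by linarith, by linarith⟩).2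
    have h2 := hbot _ (hproj q hq) (3 * δ / 4) ⟨by linarith, by linarith⟩
    rw [e] at h1 h2
    obtain ⟨s, hs, h0⟩ := intermediate_value_Icc (by linarith) (hcont q hq _ _ ha hb (by linarith))
      ⟨h2.le, h1.le⟩
    exact ⟨s, hmove q hq s (abs_lt.2 ⟨by linarith [hs.1], by linarith [hs.2]⟩), h0⟩
  · have := (hU q (hWU q hq)).2.1
    rw [h] at this
    exact lt_irrefl _ this
  · intro q hq
    obtain ⟨-, s, hs⟩ := (hW q).1 hq
    have h1 := hd _ hs
    have h2 : MapsTo (fun q => q + (-s) • v) {q | η q ≠ 0} {q | η q ≠ 0} := fun q hq => by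
      rwa [mem_ofPred_eq, hinv]
    have h3 := h2.closure (by fun_prop) h1
    simp only at h3
    rwa [add_smul_add, add_neg_cancel, zero_smul, add_zero] at h3

theorem small_sing {U : Set F} (hU : IsOpen U) (hr : AnalyticOnNhd ℝ r U) (hη : AnalyticOnNhd ℝ η U)
    (hinv : ∀ q (s : ℝ), η (q + s • v) = η q) (h1 : ∀ q ∈ U, fderiv ℝ r q v ≠ 0)
    (h2 : ∀ q ∈ U, fderiv ℝ η q ≠ 0) : Small univ (U ∩ {q | η q = 0 ∧ r q = 0}) := by
  refine ⟨fun _ => U, fun _ q => (η q, r q), fun _ => ⟨hU, (hη.contDiffOn hU.uniqueDiffOn).prodMk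
    (hr.contDiffOn hU.uniqueDiffOn), fun x hx _ c => ?_⟩, fun x hx => ⟨0, hx.1.1, Prod.ext hx.1.2.1 hx.1.2.2⟩⟩
  have hη' := (hη x hx.2).differentiableAt
  have hv : fderiv ℝ η x v = 0 := by
    have h3 : HasDerivAt (fun t : ℝ => x + t • v) v 0 := by
      simpa using ((hasDerivAt_id (0 : ℝ)).smul_const v).const_add x
    have h4 := hη'.hasFDerivAt.comp_hasDerivAt_of_eq (0 : ℝ) h3 (by simp)
    have h5 : (η ∘ fun t : ℝ => x + t • v) = fun _ => η x := funext fun t => hinv x t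
    rw [h5] at h4
    exact h4.unique (hasDerivAt_const _ _)
  obtain ⟨w, hw⟩ : ∃ w, fderiv ℝ η x w ≠ 0 := by
    by_contra h
    exact h2 x hx.2 (ContinuousLinearMap.ext fun w => by_contra fun h' => h ⟨w, h'⟩)
  refine ⟨(c.1 / fderiv ℝ η x w) • w +
    ((c.2 - c.1 / fderiv ℝ η x w * fderiv ℝ r x w) / fderiv ℝ r x v) • v,
    by rw [Tan_of_mem_nhds univ_mem]; trivial, ?_⟩
  rw [hη'.fderiv_prodMk (hr x hx.2).differentiableAt]
  have := h1 x hx.2
  ext
  · simp [hv]; field_simp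
  · simp; field_simp; ring

theorem exists_box_pos (hR : Continuous R) (hr : AnalyticAt ℝ r z) (h0 : r z = 0) (hd : 0 < fderiv ℝ r z v)
    (hη : AnalyticOnNhd ℝ η univ) (hinv : ∀ q (s : ℝ), η (q + s • v) = η q) (hη0 : η z = 0)
    (hdη : fderiv ℝ η z ≠ 0) (hrR : ∀ᶠ q in 𝓝 z, r q = 0 → R q = 0) (hc : ∀ᶠ q in 𝓝 z, CellAt R r η C v q) :
    ∃ W T T', z ∈ W ∧ Box R r η C v W T ∧ Box R (fun q => -r q) η C (-v) W T' ∧
      Small univ (W ∩ {q | η q = 0 ∧ r q = 0}) := by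
  have hcη : Continuous η := continuousOn_univ.1 hη.continuousOn
  have e1 : ∀ᶠ q in 𝓝 z, 0 < fderiv ℝ r q v :=
    (hr.fderiv.continuousAt.clm_apply continuousAt_const).eventually (lt_mem_nhds hd)
  have e2 : ∀ᶠ q in 𝓝 z, fderiv ℝ η q ≠ 0 := (hη z trivial).fderiv.continuousAt.eventually_ne hdη
  obtain ⟨ε, hε, hU⟩ := Metric.eventually_nhds_iff_ball.1
    (hr.eventually_analyticAt.and (e1.and (hrR.and (hc.and e2))))
  set δ := ε / (2 * (‖v‖ + 1)) with hδ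
  have hδ0 : 0 < δ := by positivity
  have hδv : ∀ s : ℝ, |s| ≤ δ → ‖s • v‖ ≤ ε / 2 := by
    intro s hs
    rw [norm_smul, Real.norm_eq_abs]
    calc |s| * ‖v‖ ≤ δ * (‖v‖ + 1) := by gcongr; linarith
      _ = ε / 2 := by rw [hδ]; field_simp
  have hin : ∀ w ∈ ball z (ε / 2), ∀ s : ℝ, |s| ≤ δ → w + s • v ∈ ball z ε := by
    intro w hw s hs
    rw [mem_ball, dist_eq_norm] at hw ⊢
    rw [add_sub_right_comm]
    linarith [norm_add_le (w - z) (s • v), hδv s hs]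
  have hz2 : z ∈ ball z (ε / 2) := mem_ball_self (by positivity)
  have hm : ∀ {q : F} {s : ℝ}, 0 < s → (∀ t ∈ Icc 0 s, q + t • v ∈ ball z ε) → r q < r (q + s • v) :=
    fun hs h => lt_of_fderiv_pos (U := ball z ε) (fun q hq => ⟨(hU q hq).1.differentiableAt, (hU q hq).2.1⟩) hs h
  have key : ∀ s : ℝ, |s| ≤ δ → r (z + s • v) ≠ 0 → ∀ᶠ p : F × ℝ in 𝓝 (z, s), R (p.1 + p.2 • v) ≠ 0 := by
    intro s hs h
    have h1 : R (z + s • v) ≠ 0 := fun h' => h (((hU _ (hin z hz2 s hs)).2.2.2.1 h').1 (by rw [hinv, hη0]))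
    exact (show ContinuousAt (fun p : F × ℝ => R (p.1 + p.2 • v)) (z, s) by fun_prop).eventually_ne h1
  have hcr : ∀ s : ℝ, |s| ≤ δ → ContinuousAt (fun p : F × ℝ => r (p.1 + p.2 • v)) (z, s) := fun s hs =>
    (hU _ (hin z hz2 s hs)).1.continuousAt.comp_of_eq (f := fun p : F × ℝ => p.1 + p.2 • v) (by fun_prop) rfl
  have t1 : ∀ᶠ w in 𝓝 z, ∀ s ∈ Icc (δ / 2) δ, R (w + s • v) ≠ 0 ∧ 0 < r (w + s • v) := by
    refine isCompact_Icc.eventually_forall_of_forall_eventually fun s hs => ?_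
    have h1 : |s| ≤ δ := abs_le.2 ⟨by linarith [hs.1], hs.2⟩
    have h2 : 0 < r (z + s • v) := h0 ▸ hm (by linarith [hs.1]) fun t ht =>
      hin z hz2 t (abs_le.2 ⟨by linarith [ht.1], ht.2.trans hs.2⟩)
    exact (key s h1 h2.ne').and ((hcr s h1).eventually (lt_mem_nhds h2))
  have t2 : ∀ᶠ w in 𝓝 z, ∀ s ∈ Icc (-δ) (-(δ / 2)), R (w + s • v) ≠ 0 ∧ r (w + s • v) < 0 := by
    refine isCompact_Icc.eventually_forall_of_forall_eventually fun s hs => ?_
    have h1 : |s| ≤ δ := abs_le.2 ⟨hs.1, by linarith [hs.2]⟩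
    have h2 : r (z + s • v) < 0 := by
      have := hm (q := z + s • v) (s := -s) (by linarith [hs.2]) fun t ht => by
        rw [add_smul_add]
        exact hin z hz2 _ (abs_le.2 ⟨by linarith [ht.1, hs.1], by linarith [ht.2]⟩)
      rwa [add_smul_add, add_neg_cancel, zero_smul, add_zero, h0] at this
    exact (key s h1 h2.ne).and ((hcr s h1).eventually (gt_mem_nhds h2))
  obtain ⟨ρ, hρ, hρ'⟩ := Metric.eventually_nhds_iff_ball.1 (t1.and (t2.and (isOpen_ball.mem_nhds hz2)))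
  set lam : F →L[ℝ] ℝ := (fderiv ℝ r z v)⁻¹ • fderiv ℝ r z with hlam
  have hl : lam v = 1 := by simp [hlam, hd.ne']
  have hn : (fun b => b - lam (b - z) • v) ⁻¹' ball z ρ ∈ 𝓝 z :=
    (show ContinuousAt (fun b => b - lam (b - z) • v) z by fun_prop).preimage_mem_nhds
      (by simpa using ball_mem_nhds z hρ)
  obtain ⟨B, hB, hzB, hBs, -, -, -, hp, hm', -, hcl⟩ := half_box (hη z trivial) hη0 hdη hn
  have hdn : ∀ q ∈ B, q ∈ closure {q | η q ≠ 0} := by
    intro q hq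
    by_cases h : η q = 0
    · exact closure_mono (fun x hx => ne_of_gt hx.2) (hcl q hq h).1
    · exact subset_closure h
  have b1 := box_aux (W := {q | |lam (q - z)| < δ ∧ ∃ s : ℝ, q + s • v ∈ B}) hl hδ0 hρ (U := ball z ε)
    (fun q hq => ⟨(hU q hq).1, (hU q hq).2.1, (hU q hq).2.2.1, (hU q hq).2.2.2.1⟩)
    (fun w hw s hs => hin w (hρ' w hw).2.2 s hs) (fun w hw => (hρ' w hw).1)
    (fun w hw s hs => ((hρ' w hw).2.1 (-s) ⟨by linarith [hs.2], by linarith [hs.1]⟩).2) hB hBs hinv hcη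
    (preconn_of_contr hp).isPreconnected (preconn_of_contr hm').isPreconnected hdn fun q => Iff.rfl
  have b2 := box_aux (W := {q | |lam (q - z)| < δ ∧ ∃ s : ℝ, q + s • v ∈ B}) (r := fun q => -r q) (v := -v)
    (lam := -lam) (C := C) (R := R) (by simp [hl]) hδ0 hρ (U := ball z ε)
    (fun q hq => ⟨(hU q hq).1.neg, by rw [fderiv_fun_neg]; simpa using (hU q hq).2.1,
      fun h => (hU q hq).2.2.1 (neg_eq_zero.1 h), (hU q hq).2.2.2.1.neg⟩)
    (fun w hw s hs => by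
      rw [smul_neg, ← neg_smul]; exact hin w (hρ' w hw).2.2 _ (by rwa [abs_neg]))
    (fun w hw s hs => by
      rw [smul_neg, ← neg_smul, neg_pos]
      exact (hρ' w hw).2.1 (-s) ⟨by linarith [hs.2], by linarith [hs.1]⟩)
    (fun w hw s hs => by
      rw [smul_neg, ← neg_smul, neg_neg, neg_lt_zero]
      exact ((hρ' w hw).1 s hs).2) hB (fun b hb => by rw [neg_apply, smul_neg, neg_smul, neg_neg]; exact hBs hb)
    (fun q s => by rw [smul_neg, ← neg_smul, hinv]) hcη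
    (preconn_of_contr hp).isPreconnected (preconn_of_contr hm').isPreconnected hdn fun q => by
      rw [mem_ofPred_eq, neg_apply, abs_neg]
      refine and_congr_right fun _ => ⟨fun ⟨s, hs⟩ => ⟨-s, by simpa using hs⟩, fun ⟨s, hs⟩ => ⟨-s, ?_⟩⟩
      simpa using hs
  refine ⟨_, _, _, ?_, b1, b2, ?_⟩
  · exact ⟨by simpa using hδ0, 0, by simpa using hzB⟩
  refine (small_sing (U := ball z ε) isOpen_ball (fun q hq => (hU q hq).1) (hη.mono (subset_univ _)) hinv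
    (fun q hq => (hU q hq).2.1.ne') fun q hq => (hU q hq).2.2.2.2).mono fun q hq => ⟨?_, hq.1.2⟩
  obtain ⟨h1, s, hs⟩ := hq.1.1
  have h2 := hBs hs
  rw [mem_preimage, add_sub_right_comm q _ z, map_add, map_smul, hl, smul_eq_mul, mul_one, add_smul,
    add_sub_add_right_eq_sub] at h2
  simpa using hin _ (hρ' _ h2).2.2 _ h1.le

theorem exists_box (hR : Continuous R) (hr : AnalyticAt ℝ r z) (h0 : r z = 0) (hd : fderiv ℝ r z v ≠ 0)
    (hη : AnalyticOnNhd ℝ η univ) (hinv : ∀ q (s : ℝ), η (q + s • v) = η q) (hη0 : η z = 0)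
    (hdη : fderiv ℝ η z ≠ 0) (hrR : ∀ᶠ q in 𝓝 z, r q = 0 → R q = 0) (hc : ∀ᶠ q in 𝓝 z, CellAt R r η C v q) :
    ∃ v' W T T', z ∈ W ∧ Box R r η C v' W T ∧ Box R (fun q => -r q) η C (-v') W T' ∧
      Small univ (W ∩ {q | η q = 0 ∧ r q = 0}) := by
  rcases hd.lt_or_gt with h | h
  · refine ⟨-v, exists_box_pos hR hr h0 (by simpa using h) hη (fun q s => by rw [smul_neg, ← neg_smul, hinv])
      hη0 hdη hrR (hc.mono fun q hq h0 => ⟨(hq h0).1, (hq.neg h0).2⟩)⟩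
  · exact ⟨v, exists_box_pos hR hr h0 h hη hinv hη0 hdη hrR hc⟩

end Crest.Agent.R264
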