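import Crest.Agent.R264.Cell.Up

/-! Row 264, block Cell: an `UpSet` approached from both sides by diverging sequences is a walled section. -/

set_option autoImplicit false
set_option linter.unusedSectionVars false
open Set Filter Topology Metric Complex

namespace Crest.Agent.R264

variable {E F : Type}
  [NormedAddCommGroup E] [NormedSpace ℂ E] [NormedSpace ℝ E] [IsScalarTower ℝ ℂ E] [FiniteDimensional ℂ E]
  [NormedAddCommGroup F] [NormedSpace ℂ F] [NormedSpace ℝ F] [IsScalarTower ℝ ℂ F] [FiniteDimensional ℂ F]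
  {n : ℕ} {X U : Set E} {π : E → F} {R r η : F → ℝ} {C W T : Set F} {v : F}

theorem UpSet.conn (u : UpSet X π r η v W U) {Y : Type} [TopologicalSpace Y] {Z : Set Y} (hZ : IsPreconnected Z)
    {c : Y → E} (hc : ContinuousOn c Z)
    (h : ∀ y ∈ Z, c y ∈ Reg X π ∧ π (c y) ∈ W ∧ (η (π (c y)) = 0 → 0 < r (π (c y)))) {y₀ : Y} (hy₀ : y₀ ∈ Z)
    (h0 : c y₀ ∈ U) : ∀ y ∈ Z, c y ∈ U := by
  refine clopen_top (A := c ⁻¹' U) hZ ⟨y₀, hy₀, h0⟩ (fun y hy hA => ?_) fun y hy hfr => ?_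
  · exact ((hc y hy).tendsto_nhdsWithin fun y hy => (h y hy).1.1).eventually (u.opn _ hA)
  · exact u.cls _ (h y hy).1 (h y hy).2.1 (h y hy).2.2 (mem_closure_of_frequently_of_tendsto hfr (hc y hy))

theorem UpSet.sec_in (hX : Mfd n X) (hn : Module.finrank ℂ F = n) (hπ : AnalyticOn ℂ π X)
    (u : UpSet X π r η v W U) {V Z : Set F} {τ : F → E} (hV : IsOpen V) (hτ : Sec X π V τ)
    (hZ : IsPreconnected Z) (h : ∀ q ∈ Z, q ∈ V ∧ q ∈ W ∧ (η q = 0 → 0 < r q)) {q₀ : F} (hq₀ : q₀ ∈ Z)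
    (h0 : τ q₀ ∈ U) : Z ⊆ π '' U := fun q hq =>
  ⟨τ q, u.conn hZ (hτ.1.continuousOn.mono fun q hq => (h q hq).1) (fun q hq => by
    rw [(hτ.2 q (h q hq).1).2]
    exact ⟨(hτ.nhds hX hn hπ hV (h q hq).1).1, (h q hq).2⟩) hq₀ h0 q hq, (hτ.2 q (h q hq).1).2⟩

theorem Box.near_zero (b : Box R r η C v W T) {q₀ : F} {s₀ : ℝ} (hp : q₀ + s₀ • v ∈ W)
    (h0 : r (q₀ + s₀ • v) = 0) {V : Set F} (hV : V ∈ 𝓝 (q₀ + s₀ • v)) :
    ∀ᶠ q in 𝓝 q₀, ∃ s : ℝ, q + s • v ∈ V ∩ W ∧ r (q + s • v) = 0 := by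
  obtain ⟨V', hV's, hV', hpV'⟩ := _root_.mem_nhds_iff.1 (inter_mem hV (b.oW.mem_nhds hp))
  obtain ⟨ε, h1, h2⟩ := ((seg_small (hV'.mem_nhds hpV') v).and self_mem_nhdsWithin).exists
  have h2' : 0 < ε := h2
  have hseg : ∀ s ∈ Icc 0 (2 * ε), q₀ + (s₀ - ε) • v + s • v ∈ V' := by
    intro s hs
    have := h1 (s - ε) (abs_le.2 ⟨by linarith [hs.1], by linarith [hs.2]⟩)
    rw [add_smul_add] at this ⊢
    rwa [show s₀ - ε + s = s₀ + (s - ε) by ring]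
  have hlo := hV's (seg_zero (by linarith) hseg)
  have hhi := hV's (hseg _ (right_mem_Icc.2 (by linarith)))
  have e1 : q₀ + (s₀ - ε) • v + (2 * ε) • v = q₀ + s₀ • v + ε • v := by
    rw [add_smul_add, add_smul_add]; congr 2; ring
  have e2 : q₀ + (s₀ - ε) • v + ε • v = q₀ + s₀ • v := by rw [add_smul_add, sub_add_cancel]
  have hsg : ∀ᶠ q' in 𝓝 (q₀ + (s₀ - ε) • v), r (q' + (2 * ε) • v) * r q' < 0 := by
    refine (((b.anr _ hhi.2).continuousAt.comp_of_eq (f := fun q' => q' + (2 * ε) • v) (by fun_prop) rfl).mul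
      (b.anr _ hlo.2).continuousAt).eventually (gt_mem_nhds ?_)
    change r (q₀ + (s₀ - ε) • v + (2 * ε) • v) * r (q₀ + (s₀ - ε) • v) < 0
    have a1 := b.mono _ hp ε h2' (e1 ▸ hhi.2)
    have a2 := b.mono _ hlo.2 ε h2' (e2 ▸ hp)
    rw [e2] at a2
    rw [e1]
    exact mul_neg_of_pos_of_neg (h0 ▸ a1) (h0 ▸ a2)
  filter_upwards [(show ContinuousAt (fun q' => q' + (s₀ - ε) • v) q₀ by fun_prop).eventually
    (hsg.and (tube hV' hseg))] with q hq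
  obtain ⟨s, hs, h3⟩ := exists_zero_seg (by linarith)
    (fun s hs => (b.anr _ (hV's (hq.2 s hs)).2).continuousAt) hq.1
  refine ⟨s₀ - ε + s, ?_, ?_⟩ <;> rw [← add_smul_add]
  exacts [hV's (hq.2 s hs), h3]

theorem Box.zero_unique (b : Box R r η C v W T) {q : F} {s s' : ℝ} (h : q + s • v ∈ W) (h' : q + s' • v ∈ W)
    (h0 : r (q + s • v) = 0) (h0' : r (q + s' • v) = 0) : s = s' := by
  rcases lt_trichotomy s s' with hl | hl | hl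
  · have := b.mono _ h (s' - s) (by linarith) (by rwa [add_smul_add, add_sub_cancel])
    rw [add_smul_add, add_sub_cancel] at this
    linarith
  · exact hl
  · have := b.mono _ h' (s - s') (by linarith) (by rwa [add_smul_add, add_sub_cancel])
    rw [add_smul_add, add_sub_cancel] at this
    linarith

theorem Box.wall_conn (b : Box R r η C v W T) {P : Set F} (hP : IsPreconnected (W ∩ P))
    (hi : ∀ q (s : ℝ), q ∈ P → q + s • v ∈ P) : IsPreconnected (W ∩ P ∩ {q | r q = 0}) := by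
  choose! s hs using b.hit
  have : W ∩ P ∩ {q | r q = 0} = (fun q => q + s q • v) '' (W ∩ P) := by
    ext q
    constructor
    · rintro ⟨hq, h0⟩
      refine ⟨q, hq, ?_⟩
      simp only
      rw [b.zero_unique (hs q hq.1).1 (s' := 0) (by simpa using hq.1) (hs q hq.1).2 (by simpa using h0)]
      simp
    · rintro ⟨q, hq, rfl⟩
      exact ⟨⟨(hs q hq.1).1, hi _ _ hq.2⟩, (hs q hq.1).2⟩
  rw [this]
  refine hP.image _ fun q hq V hV => mem_map.2 ?_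
  filter_upwards [mem_nhdsWithin_of_mem_nhds (b.near_zero (hs q hq.1).1 (hs q hq.1).2 hV),
    self_mem_nhdsWithin] with q' h1 hq'
  obtain ⟨s', h2, h3⟩ := h1
  rw [mem_preimage, b.zero_unique (hs q' hq'.1).1 h2.2 (hs q' hq'.1).2 h3]
  exact h2.1

theorem Box.lt (hc : ACls X π R C) (b : Box R r η C v W T) {p : F} (hp : p ∈ W) (h0 : r p = 0) (hη : η p ≠ 0) :
    ∃ V, IsOpen V ∧ p ∈ V ∧ (∀ q ∈ V, q ∈ W ∧ η q ≠ 0) ∧ IsPreconnected V ∧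
      IsOpen (V ∩ {q | 0 < r q}) ∧ IsPreconnected (V ∩ {q | 0 < r q}) ∧ ∀ x ∈ Reg X π, π x ∈ V →
        (r (π x) = 0 → ∃ τ, Sec X π V τ ∧ τ (π x) = x) ∧
        (0 < r (π x) → ∃ τ, Sec X π (V ∩ {q | 0 < r q}) τ ∧ τ (π x) = x) := by
  have hR := b.rR p hp h0
  obtain ⟨V₁, r₁, hV₁, hpV, hr₁, hd₁, hRr, 𝒮₀, 𝒮p, 𝒮m, -, -, -, h₀, hp', hm', hcov⟩ :=
    hc.lt p ((b.loc p hp hR).2 hη).1 hR
  obtain ⟨c, -, -, hs⟩ := sign_swap (b.anr p hp) (hr₁ p hpV) h0 (b.dr p hp) hd₁ (by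
    filter_upwards [(b.oW.inter hV₁).mem_nhds ⟨hp, hpV⟩] with q hq h
    exact (hRr q hq.2).1 (b.rR q hq.1 h))
  obtain ⟨V, hV, hpV', hVs, hr, -, c1, c2, -⟩ := half_box (b.anr p hp) h0 (b.dr p hp)
    (hs.and ((b.cη.continuousAt.eventually_ne hη).and ((b.oW.inter hV₁).eventually_mem ⟨hp, hpV⟩)))
  refine ⟨V, hV, hpV', fun q hq => ⟨(hVs hq).2.2.1, (hVs hq).2.1⟩, (preconn_of_contr c1).isPreconnected,
    hr.continuousOn.isOpen_inter_preimage hV isOpen_Ioi, (preconn_of_contr c2).isPreconnected,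
    fun x hx hxV => ⟨fun h => ?_, fun h => ?_⟩⟩
  · have h1 := (hVs hxV).1.1.1 h
    rcases hcov x hx (hVs hxV).2.2.2 with ⟨τ, hτ, e⟩ | ⟨h2, -⟩ | ⟨h2, -⟩
    · exact ⟨τ, (h₀ τ hτ).mono fun q hq => (hVs hq).2.2.2, e⟩
    · exact absurd h1 h2.ne'
    · exact absurd h1 (neg_pos.1 h2).ne
  · have h1 := (hVs hxV).1.2.1.1 h
    rcases hcov x hx (hVs hxV).2.2.2 with ⟨τ, hτ, e⟩ | ⟨h2, τ, hτ, e⟩ | ⟨h2, τ, hτ, e⟩
    · exact ⟨τ, (h₀ τ hτ).mono fun q hq => (hVs hq.1).2.2.2, e⟩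
    · exact ⟨τ, (hp' τ hτ).1.mono fun q hq => ⟨(hVs hq.1).2.2.2,
        (mul_pos_iff_of_pos_left ((mul_pos_iff_of_pos_right h2).1 h1)).1 ((hVs hq.1).1.2.1.1 hq.2)⟩, e⟩
    · refine ⟨τ, (hm' τ hτ).1.mono fun q hq => ⟨(hVs hq.1).2.2.2, ?_⟩, e⟩
      have h3 : c < 0 := neg_of_mul_pos_left h1 (neg_pos.1 h2).le
      exact neg_pos.2 (neg_of_mul_pos_right ((hVs hq.1).1.2.1.1 hq.2) h3.le)

section
variable (hX : Mfd n X) (hn : Module.finrank ℂ F = n) (hc : ACls X π R C) (b : Box R r η C v W T)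
  (u : UpSet X π r η v W U)
include hX hn hc b u

theorem UpSet.wall_closed {p : F} (hp : p ∈ W) (h0 : r p = 0) (hη : η p ≠ 0)
    (h : ∃ᶠ q in 𝓝 p, r q = 0 ∧ q ∈ π '' U) : p ∈ π '' U := by
  obtain ⟨V, hV, hpV, hs, c1, -, -, hcov⟩ := b.lt hc hp h0 hη
  obtain ⟨_, ⟨h1, x, hx, rfl⟩, h2⟩ := (h.and_eventually (hV.mem_nhds hpV)).exists
  obtain ⟨τ, hτ, e⟩ := (hcov x (u.sub x hx).1 h2).1 h1
  exact u.sec_in hX hn hc.an hV hτ c1 (fun q hq => ⟨hq, (hs q hq).1, fun h => absurd h (hs q hq).2⟩) h2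
    (e.symm ▸ hx) hpV

theorem UpSet.above_wall {p : F} (hp : p ∈ W) (h0 : r p = 0) (hη : η p ≠ 0)
    (h : ∃ᶠ q in 𝓝 p, 0 < r q ∧ q ∈ π '' U) : ∀ᶠ q in 𝓝 p, 0 < r q → q ∈ π '' U := by
  obtain ⟨V, hV, hpV, hs, -, o2, c2, hcov⟩ := b.lt hc hp h0 hη
  obtain ⟨_, ⟨h1, x, hx, rfl⟩, h2⟩ := (h.and_eventually (hV.mem_nhds hpV)).exists
  obtain ⟨τ, hτ, e⟩ := (hcov x (u.sub x hx).1 h2).2 h1
  have := u.sec_in hX hn hc.an o2 hτ c2 (fun q hq => ⟨hq, (hs q hq.1).1, fun _ => hq.2⟩) ⟨h2, h1⟩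
    (e.symm ▸ hx)
  filter_upwards [hV.mem_nhds hpV] with q hq h3
  exact this ⟨hq, h3⟩

/-- diverging sequences in `U` over a point of the wall -/
theorem UpSet.seq {p : F} (hp : p ∈ W) (h0 : r p = 0) (hη : η p ≠ 0) {J : Type} {l : Filter J} {x : J → E}
    (hx : ∀ᶠ j in l, x j ∈ U) (hl : Tendsto (fun j => π (x j)) l (𝓝 p))
    (hd : ∀ a ∈ X, ¬ Tendsto x l (𝓝 a)) : p ∉ π '' U ∧ ∀ᶠ j in l, 0 < r (π (x j)) := by
  have h1 : p ∉ π '' U := by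
    intro h
    obtain ⟨-, σ, hσ, hl'⟩ := sec_of_inj hX hn hc.an (fun x hx => (u.sub x hx).1) u.inj u.opn
    exact hd _ (hσ.2 p h).1 (((hσ.1 p h).continuousAt.tendsto.comp hl).congr' (hx.mono fun j hj => hl' _ hj))
  refine ⟨h1, by_contra fun h => h1 (u.wall_closed hX hn hc b hp h0 hη ?_)⟩
  rw [not_eventually] at h
  refine frequently_iff.2 fun {V} hV => ?_
  obtain ⟨j, h2, h3, s, h4, h5⟩ := (h.and_eventually (hx.and (hl.eventually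
    (b.near_zero (q₀ := p) (s₀ := 0) (by simpa using hp) (by simpa using h0) (V := V) (by simpa using hV))))).exists
  refine ⟨_, h4.1, h5, u.up _ h3 s (by_contra fun hs => h2 ?_) h4.2⟩
  have := b.mono _ h4.2 (-s) (by linarith) (by
    rw [add_smul_add, add_neg_cancel, zero_smul, add_zero]; exact (u.sub _ h3).2)
  rwa [add_smul_add, add_neg_cancel, zero_smul, add_zero, h5] at this

theorem UpSet.side {P : Set F} (hP : IsPreconnected (W ∩ P)) (hi : ∀ q (s : ℝ), q ∈ P → q + s • v ∈ P)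
    (hη : ∀ q ∈ P, η q ≠ 0) {p : F} (hp : p ∈ W ∩ P) (h0 : r p = 0) (h1 : p ∉ π '' U)
    (h2 : ∃ᶠ q in 𝓝 p, 0 < r q ∧ q ∈ π '' U) :
    ∀ q ∈ W ∩ P, (0 < r q → q ∈ π '' U) ∧ (r q = 0 → q ∉ π '' U) := by
  have hH := b.wall_conn hP hi
  have a1 : W ∩ P ∩ {q | r q = 0} ⊆ {p | ∀ᶠ q in 𝓝 p, 0 < r q → q ∈ π '' U} := by
    refine clopen_top hH ⟨p, ⟨hp, h0⟩, u.above_wall hX hn hc b hp.1 h0 (hη p hp.2) h2⟩
      (fun p' _ h => mem_nhdsWithin_of_mem_nhds h.eventually_nhds) fun p' hp' h => ?_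
    refine u.above_wall hX hn hc b hp'.1.1 hp'.2 (hη p' hp'.1.2) (frequently_iff.2 fun {V} hV => ?_)
    obtain ⟨p'', h3, h4, h5⟩ := (h.and_eventually (eventually_mem_nhdsWithin.and
      (mem_nhdsWithin_of_mem_nhds (eventually_mem_nhds_iff.2 hV)))).exists
    obtain ⟨ε, h6, h7⟩ := ((seg_small (h3.and (inter_mem h5 (b.oW.mem_nhds h4.1.1))) v).and
      self_mem_nhdsWithin).exists
    have h7' : 0 < ε := h7
    have h8 := h6 ε (abs_of_pos h7').le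
    have h9 : 0 < r (p'' + ε • v) := h4.2 ▸ b.mono _ h4.1.1 ε h7' h8.2.2
    exact ⟨_, h8.2.1, h9, h8.1 h9⟩
  have a2 : W ∩ P ∩ {q | r q = 0} ⊆ (π '' U)ᶜ := by
    by_contra hne
    obtain ⟨p', hp', h3⟩ := not_subset.1 hne
    have ho := (sec_of_inj hX hn hc.an (fun x hx => (u.sub x hx).1) u.inj u.opn).1
    refine h1 (clopen_top hH ⟨p', hp', not_not.1 h3⟩
      (fun p'' _ h => mem_nhdsWithin_of_mem_nhds (ho.mem_nhds h)) (fun p'' hp'' h => ?_) ⟨hp, h0⟩)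
    refine u.wall_closed hX hn hc b hp''.1.1 hp''.2 (hη _ hp''.1.2) ?_
    exact ((h.and_eventually eventually_mem_nhdsWithin).filter_mono nhdsWithin_le_nhds).mono
      fun q hq => ⟨hq.2.2, hq.1⟩
  refine fun q hq => ⟨fun h => ?_, fun h => a2 ⟨hq, h⟩⟩
  obtain ⟨s, hs, hs0⟩ := b.hit q hq.1
  have hneg : s < 0 := by
    rcases lt_trichotomy s 0 with h3 | h3 | h3
    · exact h3
    · rw [h3, zero_smul, add_zero] at hs0; exact absurd hs0 h.ne'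
    · linarith [b.mono q hq.1 s h3 hs]
  obtain ⟨ε, h6, h7⟩ := ((seg_small ((a1 ⟨⟨hs, hi _ _ hq.2⟩, hs0⟩).and (b.oW.mem_nhds hs)) v).and
    (show ∀ᶠ ε in 𝓝[>] (0 : ℝ), ε ∈ Ioo 0 (-s) from Ioo_mem_nhdsGT (neg_pos.2 hneg))).exists
  have h8 := h6 ε (abs_of_pos h7.1).le
  obtain ⟨x, hx, e⟩ := h8.1 (hs0 ▸ b.mono _ hs ε h7.1 h8.2)
  have e' : π x + (-s - ε) • v = q := by
    rw [e, add_smul_add, add_smul_add]; simp
  exact e' ▸ u.up x hx (-s - ε) (by linarith [h7.2]) (e'.symm ▸ hq.1)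

theorem UpSet.datum {p₁ p₂ : F} (hp₁ : p₁ ∈ W) (hp₂ : p₂ ∈ W) (r1 : r p₁ = 0) (r2 : r p₂ = 0)
    (hη : η p₁ * η p₂ < 0) {J : Type} {l : Filter J} [l.NeBot] {x₁ x₂ : J → E}
    (hx₁ : ∀ᶠ j in l, x₁ j ∈ U) (hl₁ : Tendsto (fun j => π (x₁ j)) l (𝓝 p₁)) (hd₁ : ∀ a ∈ X, ¬ Tendsto x₁ l (𝓝 a))
    (hx₂ : ∀ᶠ j in l, x₂ j ∈ U) (hl₂ : Tendsto (fun j => π (x₂ j)) l (𝓝 p₂))
    (hd₂ : ∀ a ∈ X, ¬ Tendsto x₂ l (𝓝 a)) :
    ∃ σ, Sec X π (W ∩ {q | 0 < r q}) σ ∧ Walled X π W r (W ∩ {q | η q = 0 ∧ r q = 0}) σ ∧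
      ∀ x ∈ U, σ (π x) = x := by
  wlog h1 : 0 < η p₁ generalizing p₁ p₂ x₁ x₂
  · refine this hp₂ hp₁ r2 r1 (by rwa [mul_comm]) hx₂ hl₂ hd₂ hx₁ hl₁ hd₁ ?_
    exact pos_of_mul_neg_right hη (not_lt.1 h1)
  have h2 : η p₂ < 0 := neg_of_mul_neg_right hη h1.le
  obtain ⟨a1, a2⟩ := u.seq hX hn hc b hp₁ r1 h1.ne' hx₁ hl₁ hd₁
  obtain ⟨a3, a4⟩ := u.seq hX hn hc b hp₂ r2 h2.ne hx₂ hl₂ hd₂
  have s1 := u.side hX hn hc b b.cp (fun q s hq => by rwa [mem_ofPred_eq, b.inv]) (fun q hq => ne_of_gt hq)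
    ⟨hp₁, h1⟩ r1 a1 (hl₁.frequently ((a2.and hx₁).mono fun j hj => ⟨hj.1, _, hj.2, rfl⟩).frequently)
  have s2 := u.side hX hn hc b b.cm (fun q s hq => by rwa [mem_ofPred_eq, b.inv])
    (fun q hq => (neg_pos.1 hq).ne) ⟨hp₂, neg_pos.2 h2⟩ r2 a3
    (hl₂.frequently ((a4.and hx₂).mono fun j hj => ⟨hj.1, _, hj.2, rfl⟩).frequently)
  have s3 : ∀ q ∈ W, η q ≠ 0 → (0 < r q → q ∈ π '' U) ∧ (r q = 0 → q ∉ π '' U) := fun q hq h => by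
    rcases h.lt_or_gt with h | h
    exacts [s2 q ⟨hq, neg_pos.2 h⟩, s1 q ⟨hq, h⟩]
  have s4 : W ∩ {q | 0 < r q} ⊆ π '' U := by
    intro q hq
    by_cases h : η q = 0
    · obtain ⟨V, hV, hqV, 𝒮, -, h𝒮, hcov⟩ := hc.pp q fun hR => hq.2.ne' ((b.loc q hq.1 hR).1 h)
      obtain ⟨δ, hδ, hb⟩ := Metric.mem_nhds_iff.1 (inter_mem (hV.mem_nhds hqV)
        ((b.anr.continuousOn.isOpen_inter_preimage b.oW isOpen_Ioi).mem_nhds hq))
      obtain ⟨q', h3, h4⟩ := mem_closure_iff.1 (b.dn q hq.1) _ isOpen_ball (mem_ball_self hδ)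
      obtain ⟨x, hx, rfl⟩ := (s3 q' (hb h3).2.1 h4).1 (hb h3).2.2
      obtain ⟨τ, hτ, e⟩ := hcov x (u.sub x hx).1.1 (hb h3).1
      exact u.sec_in hX hn hc.an hV (h𝒮 τ hτ) (convex_ball q δ).isPreconnected
        (fun q hq => ⟨(hb hq).1, (hb hq).2.1, fun _ => (hb hq).2.2⟩) h3 (e.symm ▸ hx) (mem_ball_self hδ)
    · exact (s3 q hq.1 h).1 hq.2
  obtain ⟨-, σ, hσ, hl⟩ := sec_of_inj hX hn hc.an (fun x hx => (u.sub x hx).1) u.inj u.opn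
  refine ⟨σ, hσ.mono s4, fun x hx hxW h0 hN hcl => ?_, hl⟩
  have h3 : η (π x) ≠ 0 := fun h => hN ⟨hxW, h, h0⟩
  refine (s3 _ hxW h3).2 h0 ⟨x, u.cls x hx hxW (fun h => absurd h h3) (closure_mono ?_ hcl), rfl⟩
  rintro _ ⟨q, hq, rfl⟩
  obtain ⟨x', hx', rfl⟩ := s4 hq
  rwa [hl x' hx']

end

end Crest.Agent.R264
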