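import Crest.Agent.R264.Cell.Box

/-! Row 264, block Cell: continuation of the sections over the top slab down the vertical lines. -/

set_option autoImplicit false
set_option linter.unusedSectionVars false
open Set Filter Topology Metric Complex

namespace Crest.Agent.R264

variable {E F : Type}
  [NormedAddCommGroup E] [NormedSpace ℂ E] [NormedSpace ℝ E] [IsScalarTower ℝ ℂ E] [FiniteDimensional ℂ E]
  [NormedAddCommGroup F] [NormedSpace ℂ F] [NormedSpace ℝ F] [IsScalarTower ℝ ℂ F] [FiniteDimensional ℂ F]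

/-- points obtained from the section `σ` over `T` by continuation down the vertical lines -/
inductive UpI (X : Set E) (π : E → F) (v : F) (W T : Set F) (σ : F → E) : E → Prop
  | base (q : F) (hq : q ∈ T) : UpI X π v W T σ (σ q)
  | step (V : Set F) (τ : F → E) (q : F) (s : ℝ) (hV : IsOpen V) (hτ : Sec X π V τ) (hs : 0 ≤ s)
      (hseg : ∀ t ∈ Icc 0 s, q + t • v ∈ V ∩ W) (h : UpI X π v W T σ (τ (q + s • v))) :
      UpI X π v W T σ (τ q)

/-- a section over an upper set which is clopen off the slit `{η = 0, r ≤ 0}` -/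
structure UpSet (X : Set E) (π : E → F) (r η : F → ℝ) (v : F) (W : Set F) (U : Set E) : Prop where
  sub : ∀ x ∈ U, x ∈ Reg X π ∧ π x ∈ W
  inj : InjOn π U
  opn : ∀ x ∈ U, ∀ᶠ y in 𝓝[X] x, y ∈ U
  cls : ∀ x ∈ Reg X π, π x ∈ W → (η (π x) = 0 → 0 < r (π x)) → x ∈ closure U → x ∈ U
  up : ∀ x ∈ U, ∀ s : ℝ, 0 ≤ s → π x + s • v ∈ W → π x + s • v ∈ π '' U

variable {n : ℕ} {X : Set E} {π : E → F} {R r η : F → ℝ} {C W T : Set F} {v : F} {σ : F → E}

/-- clopen argument in any topological space -/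
theorem clopen_top {Y : Type} [TopologicalSpace Y] {X A : Set Y} (hc : IsPreconnected X) (hne : (X ∩ A).Nonempty)
    (ho : ∀ x ∈ X, x ∈ A → ∀ᶠ y in 𝓝[X] x, y ∈ A) (hcl : ∀ x ∈ X, (∃ᶠ y in 𝓝[X] x, y ∈ A) → x ∈ A) :
    X ⊆ A := by
  have : PreconnectedSpace X := Subtype.preconnectedSpace hc
  have h1 : IsClopen ((↑) ⁻¹' A : Set X) := by
    refine ⟨isClosed_iff_frequently.2 fun x hx => hcl x x.2 ?_, isOpen_iff_mem_nhds.2 fun x hx => ?_⟩
    · rw [← map_nhds_subtype_val, frequently_map]; exact hx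
    · have := ho x x.2 hx
      rwa [← map_nhds_subtype_val, eventually_map] at this
  obtain ⟨x, hx, hxA⟩ := hne
  have h2 := h1.eq_univ ⟨⟨x, hx⟩, hxA⟩
  intro y hy
  exact (h2 ▸ mem_univ (⟨y, hy⟩ : X) : (⟨y, hy⟩ : X) ∈ ((↑) ⁻¹' A : Set X))

theorem seg_eq (hX : Mfd n X) (hn : Module.finrank ℂ F = n) (hπ : AnalyticOn ℂ π X) {V V' : Set F}
    {τ τ' : F → E} (hV : IsOpen V) (hV' : IsOpen V') (hτ : Sec X π V τ) (hτ' : Sec X π V' τ') {q : F}
    {a b t₀ t₁ : ℝ} (h : ∀ t ∈ Icc a b, q + t • v ∈ V ∩ V') (h0 : t₀ ∈ Icc a b) (h1 : t₁ ∈ Icc a b)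
    (he : τ (q + t₀ • v) = τ' (q + t₀ • v)) : τ (q + t₁ • v) = τ' (q + t₁ • v) :=
  Sec.eqOn hX hn hπ hV hV' hτ hτ' (V := (fun t : ℝ => q + t • v) '' Icc a b)
    (isPreconnected_Icc.image _ (by fun_prop)) (by rintro _ ⟨t, ht, rfl⟩; exact h t ht) ⟨t₀, h0, rfl⟩ he
    ⟨t₁, h1, rfl⟩

theorem tube {V : Set F} (hV : IsOpen V) {q : F} {a b : ℝ} (h : ∀ t ∈ Icc a b, q + t • v ∈ V) :
    ∀ᶠ q' in 𝓝 q, ∀ t ∈ Icc a b, q' + t • v ∈ V :=
  isCompact_Icc.eventually_forall_of_forall_eventually fun t ht =>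
    (show ContinuousAt (fun p : F × ℝ => p.1 + p.2 • v) (q, t) by fun_prop).eventually (hV.mem_nhds (h t ht))

theorem seg_zero {V : Set F} {q : F} {s : ℝ} (hs : 0 ≤ s) (h : ∀ t ∈ Icc 0 s, q + t • v ∈ V) : q ∈ V := by
  simpa using h 0 (left_mem_Icc.2 hs)

theorem seg_shift {V : Set F} {q : F} {s a c : ℝ} (h : ∀ t ∈ Icc 0 s, q + t • v ∈ V) (ha : 0 ≤ a)
    (hc : a + c ≤ s) : ∀ t ∈ Icc 0 c, q + a • v + t • v ∈ V := by
  intro t ht
  rw [add_smul_add]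
  exact h _ ⟨by linarith [ht.1], by linarith [ht.2]⟩

theorem sec_of_inj (hX : Mfd n X) (hn : Module.finrank ℂ F = n) (hπ : AnalyticOn ℂ π X) {U : Set E}
    (hr : ∀ x ∈ U, x ∈ Reg X π) (hi : InjOn π U) (ho : ∀ x ∈ U, ∀ᶠ y in 𝓝[X] x, y ∈ U) :
    IsOpen (π '' U) ∧ ∃ σ, Sec X π (π '' U) σ ∧ ∀ x ∈ U, σ (π x) = x := by
  have hl : ∀ x ∈ U, Function.invFunOn π U (π x) = x := fun x hx => hi.leftInvOn_invFunOn hx
  have key : ∀ x ∈ U, ∃ τ : F → E, AnalyticAt ℂ τ (π x) ∧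
      ∀ᶠ q in 𝓝 (π x), q ∈ π '' U ∧ τ q = Function.invFunOn π U q := by
    intro x hx
    obtain ⟨O, V, τ, -, hV, hxO, -, hτ, -, h⟩ := Reg.sec hX hn hπ (hr x hx) univ_mem
    obtain ⟨h1, h2⟩ := h x ⟨(hr x hx).1, hxO⟩
    have h3 := (hτ.nhds hX hn hπ hV h1).2.1
    have h4 := ho x hx
    rw [← h2, ← h3, eventually_map] at h4
    refine ⟨τ, hτ.1 _ h1, ?_⟩
    filter_upwards [h4, hV.mem_nhds h1] with q hq hqV
    refine ⟨⟨_, hq, (hτ.2 q hqV).2⟩, ?_⟩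
    conv_rhs => rw [← (hτ.2 q hqV).2]
    exact (hl _ hq).symm
  refine ⟨isOpen_iff_mem_nhds.2 ?_, Function.invFunOn π U, ⟨?_, ?_⟩, hl⟩
  · rintro _ ⟨x, hx, rfl⟩
    obtain ⟨τ, -, h⟩ := key x hx
    exact h.mono fun q hq => hq.1
  · rintro _ ⟨x, hx, rfl⟩
    obtain ⟨τ, h1, h⟩ := key x hx
    exact h1.congr (h.mono fun q hq => hq.2)
  · rintro _ ⟨x, hx, rfl⟩
    rw [hl x hx]
    exact ⟨(hr x hx).1, rfl⟩

/-- a section which frequently meets `U` near a point of `π '' U` meets it over the point -/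
theorem sec_closed (hX : Mfd n X) (hn : Module.finrank ℂ F = n) (hπ : AnalyticOn ℂ π X) {U : Set E}
    (hr : ∀ x ∈ U, x ∈ Reg X π) (hi : InjOn π U) (ho : ∀ x ∈ U, ∀ᶠ y in 𝓝[X] x, y ∈ U) {V : Set F}
    {τ : F → E} (hV : IsOpen V) (hτ : Sec X π V τ) {p : F} (hp : p ∈ V) (hpU : p ∈ π '' U)
    (h : ∃ᶠ q in 𝓝 p, τ q ∈ U) : τ p ∈ U := by
  obtain ⟨-, σ, hσ, hl⟩ := sec_of_inj hX hn hπ hr hi ho
  have h1 : ∃ᶠ q in 𝓝 p, τ q = σ q := (h.and_eventually (hV.mem_nhds hp)).mono fun q hq => by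
    conv_rhs => rw [← (hτ.2 q hq.2).2]
    exact (hl _ hq.1).symm
  rw [tendsto_nhds_unique_of_frequently_eq (hτ.1 p hp).continuousAt (hσ.1 p hpU).continuousAt h1]
  obtain ⟨x, hx, rfl⟩ := hpU
  rwa [hl x hx]

theorem seg_small {V : Set F} {p : F} (hV : V ∈ 𝓝 p) (v : F) :
    ∀ᶠ ε : ℝ in 𝓝[>] 0, ∀ t : ℝ, |t| ≤ ε → p + t • v ∈ V := by
  have h : ∀ᶠ t : ℝ in 𝓝 0, p + t • v ∈ V :=
    (show ContinuousAt (fun t : ℝ => p + t • v) 0 by fun_prop).eventually (by simpa using hV)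
  obtain ⟨δ, hδ, h⟩ := Metric.eventually_nhds_iff.1 h
  filter_upwards [Ioo_mem_nhdsGT hδ] with ε hε t ht
  exact h (by rw [Real.dist_eq, sub_zero]; exact ht.trans_lt hε.2)

theorem sign_change {r' : F → ℝ} {p : F} (hr : DifferentiableAt ℝ r' p) (h0 : r' p = 0)
    (hd : fderiv ℝ r' p v ≠ 0) : ∀ᶠ ε : ℝ in 𝓝[>] 0, r' (p + ε • v) * r' (p + (-ε) • v) < 0 := by
  have h3 : HasDerivAt (fun t : ℝ => p + t • v) v 0 := by
    simpa using ((hasDerivAt_id (0 : ℝ)).smul_const v).const_add p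
  have h4 := hasDerivAt_iff_tendsto_slope_zero.1 (hr.hasFDerivAt.comp_hasDerivAt_of_eq (0 : ℝ) h3 (by simp))
  simp only [zero_add, Function.comp_apply, zero_smul, add_zero, h0, sub_zero, smul_eq_mul] at h4
  have h5 : Tendsto (fun ε : ℝ => -ε) (𝓝[>] 0) (𝓝[≠] 0) := by
    refine tendsto_nhdsWithin_iff.2 ⟨?_, ?_⟩
    · simpa using (continuous_neg.tendsto (0 : ℝ)).mono_left nhdsWithin_le_nhds
    · filter_upwards [self_mem_nhdsWithin] with ε hε
      exact neg_ne_zero.2 (ne_of_gt hε)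
  have h6 := (h4.mono_left (nhdsGT_le_nhdsNE 0)).mul (h4.comp h5)
  filter_upwards [h6.eventually (lt_mem_nhds (mul_self_pos.2 hd)), self_mem_nhdsWithin] with ε h hε
  have hε' : 0 < ε := hε
  simp only [Function.comp_apply] at h
  have e : ε⁻¹ * r' (p + ε • v) * ((-ε)⁻¹ * r' (p + (-ε) • v)) =
      -(ε⁻¹ * ε⁻¹ * (r' (p + ε • v) * r' (p + (-ε) • v))) := by rw [inv_neg]; ring
  rw [e, neg_pos] at h
  exact neg_of_mul_neg_right h (by positivity)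

theorem exists_zero_seg {r' : F → ℝ} {q : F} {s : ℝ} (hs : 0 ≤ s)
    (hc : ∀ t ∈ Icc 0 s, ContinuousAt r' (q + t • v)) (h : r' (q + s • v) * r' q < 0) :
    ∃ t ∈ Icc 0 s, r' (q + t • v) = 0 := by
  have hc' : ContinuousOn (fun t : ℝ => r' (q + t • v)) (uIcc 0 s) := fun t ht =>
    ((hc t (by rwa [uIcc_of_le hs] at ht)).comp_of_eq (f := fun t : ℝ => q + t • v)
      (by fun_prop) rfl).continuousWithinAt
  have := intermediate_value_uIcc hc' (show (0 : ℝ) ∈ _ by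
    simp only [zero_smul, add_zero]
    rcases mul_neg_iff.1 h with h | h
    · exact mem_uIcc.2 (Or.inl ⟨h.2.le, h.1.le⟩)
    · exact mem_uIcc.2 (Or.inr ⟨h.1.le, h.2.le⟩))
  rwa [uIcc_of_le hs] at this

section
variable (hX : Mfd n X) (hn : Module.finrank ℂ F = n) (hπ : AnalyticOn ℂ π X) (b : Box R r η C v W T)
  (hσ : Sec X π T σ)
include hX hn hπ b hσ

theorem UpI.mem {x : E} (h : UpI X π v W T σ x) : x ∈ Reg X π ∧ π x ∈ W := by
  cases h with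
  | base q hq => exact ⟨(hσ.nhds hX hn hπ b.oT hq).1, by rw [(hσ.2 q hq).2]; exact b.TW hq⟩
  | step V τ q s hV hτ hs hseg h =>
    have hq := seg_zero hs hseg
    exact ⟨(hτ.nhds hX hn hπ hV hq.1).1, by rw [(hτ.2 q hq.1).2]; exact hq.2⟩

theorem UpI.opn {x : E} (h : UpI X π v W T σ x) : ∀ᶠ y in 𝓝[X] x, UpI X π v W T σ y := by
  induction h with
  | base q hq =>
    filter_upwards [(hσ.nhds hX hn hπ b.oT hq).2.2] with y hy
    exact hy.2 ▸ UpI.base _ hy.1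
  | step V τ q s hV hτ hs hseg h ih =>
    rw [← (hτ.nhds hX hn hπ hV (hseg s (right_mem_Icc.2 hs)).1).2.1, eventually_map] at ih
    rw [← (hτ.nhds hX hn hπ hV (seg_zero hs hseg).1).2.1, eventually_map]
    filter_upwards [tube (hV.inter b.oW) hseg,
      (show ContinuousAt (fun q => q + s • v) q by fun_prop).eventually ih] with q' h1 h2
    exact UpI.step V τ q' s hV hτ hs h1 h2

theorem UpI.up {x : E} (h : UpI X π v W T σ x) : ∀ s : ℝ, 0 ≤ s → π x + s • v ∈ W →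
    ∃ x', UpI X π v W T σ x' ∧ π x' = π x + s • v := by
  induction h with
  | base q hq =>
    intro s hs h
    rw [(hσ.2 q hq).2] at h ⊢
    exact ⟨_, UpI.base _ (b.Tup q hq s hs h), (hσ.2 _ (b.Tup q hq s hs h)).2⟩
  | step V τ q s hV hτ hs hseg h ih =>
    intro s' hs' h'
    rw [(hτ.2 q (seg_zero hs hseg).1).2] at h' ⊢
    rcases le_total s' s with hle | hle
    · refine ⟨τ (q + s' • v), UpI.step V τ _ (s - s') hV hτ (by linarith)
        (seg_shift hseg hs' (by linarith)) ?_, (hτ.2 _ (hseg s' ⟨hs', hle⟩).1).2⟩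
      rwa [add_smul_add, add_sub_cancel]
    · have := ih (s' - s) (by linarith)
      rw [(hτ.2 _ (hseg s (right_mem_Icc.2 hs)).1).2, add_smul_add, add_sub_cancel] at this
      exact this h'

theorem UpI.top {x : E} (h : UpI X π v W T σ x) : π x ∈ T → σ (π x) = x := by
  induction h with
  | base q hq => intro _; rw [(hσ.2 q hq).2]
  | step V τ q s hV hτ hs hseg h ih =>
    rw [(hτ.2 q (seg_zero hs hseg).1).2]
    intro hq
    rw [(hτ.2 _ (hseg s (right_mem_Icc.2 hs)).1).2] at ih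
    have := seg_eq hX hn hπ b.oT hV hσ hτ (q := q) (fun t ht => ⟨b.Tup q hq t ht.1 (hseg t ht).2, (hseg t ht).1⟩)
      (right_mem_Icc.2 hs) (left_mem_Icc.2 hs) (ih (b.Tup q hq s hs (hseg s (right_mem_Icc.2 hs)).2))
    simpa using this

theorem UpI.under {x : E} (h : UpI X π v W T σ x) {V : Set F} {τ : F → E} (hV : IsOpen V) (hτ : Sec X π V τ) :
    ∀ s : ℝ, 0 ≤ s → (∀ t ∈ Icc 0 s, π x + t • v ∈ V ∩ W) →
      (∀ x', UpI X π v W T σ x' → π x' = π x + s • v → x' = τ (π x + s • v)) → x = τ (π x) := by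
  induction h with
  | base q hq =>
    rw [(hσ.2 q hq).2]
    intro s hs hseg hu
    have h1 := b.Tup q hq s hs (hseg s (right_mem_Icc.2 hs)).2
    have := seg_eq hX hn hπ b.oT hV hσ hτ (q := q) (fun t ht => ⟨b.Tup q hq t ht.1 (hseg t ht).2, (hseg t ht).1⟩)
      (right_mem_Icc.2 hs) (left_mem_Icc.2 hs) (hu _ (UpI.base _ h1) (hσ.2 _ h1).2)
    simpa using this
  | step V' τ' q s' hV' hτ' hs' hseg' h ih =>
    rw [(hτ'.2 q (seg_zero hs' hseg').1).2]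
    intro s hs hseg hu
    rw [(hτ'.2 _ (hseg' s' (right_mem_Icc.2 hs')).1).2] at ih
    rcases le_total s' s with hle | hle
    · have h1 := ih (s - s') (by linarith) (seg_shift hseg hs' (by linarith))
        (by rwa [add_smul_add, add_sub_cancel])
      have := seg_eq hX hn hπ hV' hV hτ' hτ (q := q)
        (fun t ht => ⟨(hseg' t ht).1, (hseg t ⟨ht.1, ht.2.trans hle⟩).1⟩) (right_mem_Icc.2 hs')
        (left_mem_Icc.2 hs') h1
      simpa using this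
    · have h1 := hu (τ' (q + s • v)) (UpI.step V' τ' _ (s' - s) hV' hτ' (by linarith)
        (seg_shift hseg' hs (by linarith)) (by rwa [add_smul_add, add_sub_cancel]))
        (hτ'.2 _ (hseg' s ⟨hs, hle⟩).1).2
      have := seg_eq hX hn hπ hV' hV hτ' hτ (q := q)
        (fun t ht => ⟨(hseg' t ⟨ht.1, ht.2.trans hle⟩).1, (hseg t ht).1⟩) (right_mem_Icc.2 hs)
        (left_mem_Icc.2 hs) h1
      simpa using this

theorem UpI.inj {x : E} (h : UpI X π v W T σ x) : ∀ x', UpI X π v W T σ x' → π x' = π x → x' = x := by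
  induction h with
  | base q hq =>
    intro x' h' e
    rw [(hσ.2 q hq).2] at e
    rw [← h'.top hX hn hπ b hσ (e ▸ hq), e]
  | step V τ q s hV hτ hs hseg h ih =>
    intro x' h' e
    rw [(hτ.2 q (seg_zero hs hseg).1).2] at e
    rw [(hτ.2 _ (hseg s (right_mem_Icc.2 hs)).1).2] at ih
    have := h'.under hX hn hπ b hσ hV hτ s hs (by rwa [e]) (by rwa [e])
    rwa [e] at this

theorem UpI.lift {x : E} (h : UpI X π v W T σ x) {V : Set F} {τ : F → E} (hV : IsOpen V) (hτ : Sec X π V τ) :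
    ∀ (q : F) (s : ℝ), x = τ q → 0 ≤ s → (∀ t ∈ Icc 0 s, q + t • v ∈ V ∩ W) →
      UpI X π v W T σ (τ (q + s • v)) := by
  induction h with
  | base q₀ hq =>
    intro q s e hs hseg
    obtain rfl : q₀ = q := by rw [← (hσ.2 q₀ hq).2, e, (hτ.2 q (seg_zero hs hseg).1).2]
    rw [← seg_eq hX hn hπ b.oT hV hσ hτ (q := q₀)
      (fun t ht => ⟨b.Tup q₀ hq t ht.1 (hseg t ht).2, (hseg t ht).1⟩) (left_mem_Icc.2 hs) (right_mem_Icc.2 hs)
      (by simpa using e)]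
    exact UpI.base _ (b.Tup q₀ hq s hs (hseg s (right_mem_Icc.2 hs)).2)
  | step V' τ' q₀ s' hV' hτ' hs' hseg' h ih =>
    intro q s e hs hseg
    obtain rfl : q₀ = q := by
      rw [← (hτ'.2 q₀ (seg_zero hs' hseg').1).2, e, (hτ.2 q (seg_zero hs hseg).1).2]
    rcases le_total s' s with hle | hle
    · have := ih (q₀ + s' • v) (s - s') (seg_eq hX hn hπ hV' hV hτ' hτ (q := q₀)
        (fun t ht => ⟨(hseg' t ht).1, (hseg t ⟨ht.1, ht.2.trans hle⟩).1⟩) (left_mem_Icc.2 hs')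
        (right_mem_Icc.2 hs') (by simpa using e)) (by linarith) (seg_shift hseg hs' (by linarith))
      rwa [add_smul_add, add_sub_cancel] at this
    · rw [← seg_eq hX hn hπ hV' hV hτ' hτ (q := q₀)
        (fun t ht => ⟨(hseg' t ⟨ht.1, ht.2.trans hle⟩).1, (hseg t ht).1⟩) (left_mem_Icc.2 hs)
        (right_mem_Icc.2 hs) (by simpa using e)]
      exact UpI.step V' τ' _ (s' - s) hV' hτ' (by linarith) (seg_shift hseg' hs (by linarith))
        (by rwa [add_smul_add, add_sub_cancel])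

/-- the common core of the closedness proof -/
theorem UpI.core {V : Set F} {𝒮 : Set (F → E)} (hV : IsOpen V) (hf : 𝒮.Finite) (h𝒮 : ∀ τ ∈ 𝒮, Sec X π V τ)
    {p : F} {s : ℝ} (hs : 0 ≤ s) (hseg : ∀ t ∈ Icc 0 s, p + t • v ∈ V ∩ W)
    (ht : p + s • v ∈ π '' {x | UpI X π v W T σ x})
    (h : ∃ᶠ q in 𝓝 p, ∃ τ ∈ 𝒮, ∃ t ∈ Icc 0 s, UpI X π v W T σ (τ (q + t • v))) :
    ∃ τ ∈ 𝒮, (∃ᶠ q in 𝓝 p, ∃ t ∈ Icc 0 s, UpI X π v W T σ (τ (q + t • v))) ∧
      ∀ t ∈ Icc 0 s, UpI X π v W T σ (τ (p + t • v)) := by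
  obtain ⟨τ, hτ, h⟩ := hf.frequently_exists.1 h
  refine ⟨τ, hτ, h, fun t htt => UpI.step V τ _ (s - t) hV (h𝒮 τ hτ) (by linarith [htt.2])
    (seg_shift hseg htt.1 (by linarith)) ?_⟩
  rw [add_smul_add, add_sub_cancel]
  refine sec_closed hX hn hπ (U := {x | UpI X π v W T σ x}) (fun x hx => (UpI.mem hX hn hπ b hσ hx).1)
    (fun x hx x' hx' e => UpI.inj hX hn hπ b hσ hx' x hx e) (fun x hx => UpI.opn hX hn hπ b hσ hx) hV
    (h𝒮 τ hτ) (hseg s (right_mem_Icc.2 hs)).1 ht ?_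
  have h1 : ∃ᶠ q in 𝓝 p, UpI X π v W T σ (τ (q + s • v)) :=
    (h.and_eventually (tube (hV.inter b.oW) hseg)).mono fun q hq => by
      obtain ⟨⟨t, ht, h2⟩, h3⟩ := hq
      have := h2.lift hX hn hπ b hσ hV (h𝒮 τ hτ) _ (s - t) rfl (by linarith [ht.2])
        (seg_shift h3 ht.1 (by linarith))
      rwa [add_smul_add, add_sub_cancel] at this
  exact (show Tendsto (fun q => q + s • v) (𝓝 p) (𝓝 (p + s • v)) from
    (show ContinuousAt (fun q => q + s • v) p by fun_prop)).frequently h1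

theorem UpI.above (hc : ACls X π R C) {q : F} (hq : q ∈ W) (hη : η q = 0 → 0 < r q)
    (hfr : ∃ᶠ q' in 𝓝 q, q' ∈ π '' {x | UpI X π v W T σ x}) {S : ℝ} (hS : q + S • v ∈ T) :
    ∀ t ∈ Ioc 0 S, q + t • v ∈ π '' {x | UpI X π v W T σ x} := by
  set Ω := π '' {x | UpI X π v W T σ x} with hΩ
  have hΩo : IsOpen Ω := (sec_of_inj hX hn hπ (U := {x | UpI X π v W T σ x})
    (fun x hx => (UpI.mem hX hn hπ b hσ hx).1) (fun x hx x' hx' e => UpI.inj hX hn hπ b hσ hx' x hx e)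
    (fun x hx => UpI.opn hX hn hπ b hσ hx)).1
  intro t₀ ht₀
  by_contra hbad
  have hK : IsCompact (Icc 0 S ∩ {t : ℝ | q + t • v ∉ Ω}) :=
    isCompact_Icc.inter_right (hΩo.isClosed_compl.preimage (f := fun t : ℝ => q + t • v) (by fun_prop))
  obtain ⟨t, ⟨ht, htΩ⟩, hmax⟩ := hK.exists_isGreatest ⟨t₀, Ioc_subset_Icc_self ht₀, hbad⟩
  have ht0 : 0 < t := ht₀.1.trans_le (hmax ⟨Ioc_subset_Icc_self ht₀, hbad⟩)
  have htS : t < S := ht.2.lt_of_ne fun e => htΩ ⟨_, UpI.base _ hS, by rw [(hσ.2 _ hS).2, e]⟩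
  have hab : ∀ ε, 0 < ε → t + ε ≤ S → q + (t + ε) • v ∈ Ω := fun ε h1 h2 => by_contra fun h =>
    absurd (hmax ⟨⟨by linarith, h2⟩, h⟩) (by linarith)
  have hpW : q + t • v ∈ W := b.conv q hq S (b.TW hS) t (mem_uIcc.2 (Or.inl ht))
  by_cases hR : R (q + t • v) = 0
  · have hη' : η (q + t • v) ≠ 0 := fun h => by
      have h1 := (b.loc _ hpW hR).1 h
      have h2 := b.mono q hq t ht0 hpW
      rw [b.inv] at h
      linarith [hη h]
    obtain ⟨hC, r', hr', hd, he⟩ := (b.loc _ hpW hR).2 hη'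
    obtain ⟨V, r₁, hV, hpV, -, -, hRr, 𝒮₀, 𝒮p, 𝒮m, hf, -, -, h₀, -, -, hcov⟩ := hc.lt _ hC hR
    obtain ⟨V', hV's, hV', hpV'⟩ := _root_.mem_nhds_iff.1 (he.and (hr'.eventually_analyticAt.and
      ((hV.inter b.oW).eventually_mem ⟨hpV, hpW⟩)))
    obtain ⟨ε, h1, h2, h3, h4⟩ := ((seg_small (hV'.mem_nhds hpV') v).and
      ((sign_change hr'.differentiableAt (he.self_of_nhds.1 hR) hd).and
        ((show ∀ᶠ ε in 𝓝[>] (0 : ℝ), ε ∈ Ioo 0 (S - t) from Ioo_mem_nhdsGT (sub_pos.2 htS)).and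
          (show ∀ᶠ ε in 𝓝[>] (0 : ℝ), ε ∈ Ioo 0 t from Ioo_mem_nhdsGT ht0)))).exists
    have hseg : ∀ s ∈ Icc 0 (2 * ε), q + (t - ε) • v + s • v ∈ V' := by
      intro s hs
      have := h1 (s - ε) (abs_le.2 ⟨by linarith [hs.1], by linarith [hs.2]⟩)
      rw [add_smul_add] at this ⊢
      rwa [show t - ε + s = t + (s - ε) by ring]
    have e1 : q + (t - ε) • v + (2 * ε) • v = q + t • v + ε • v := by
      rw [add_smul_add, add_smul_add]; congr 2; ring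
    have e2 : q + (t - ε) • v = q + t • v + (-ε) • v := by rw [add_smul_add, sub_eq_add_neg]
    have hsg : ∀ᶠ q' in 𝓝 (q + (t - ε) • v), r' (q' + (2 * ε) • v) * r' q' < 0 := by
      have c1 : ContinuousAt r' (q + (t - ε) • v + (2 * ε) • v) :=
        (hV's (hseg _ (right_mem_Icc.2 (by linarith [h3.1])))).2.1.continuousAt
      have c2 : ContinuousAt r' (q + (t - ε) • v) :=
        (hV's (seg_zero (by linarith [h3.1]) hseg)).2.1.continuousAt
      refine ((c1.comp_of_eq (f := fun q' => q' + (2 * ε) • v) (by fun_prop) rfl).mul c2).eventually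
        (gt_mem_nhds ?_)
      change r' (q + (t - ε) • v + (2 * ε) • v) * r' (q + (t - ε) • v) < 0
      rw [e1, e2]; exact h2
    obtain ⟨τ, hτ, -, h5⟩ := UpI.core hX hn hπ b hσ hV hf h₀ (p := q + (t - ε) • v) (s := 2 * ε)
      (by linarith [h3.1]) (fun s hs => (hV's (hseg s hs)).2.2)
      (by rw [e1, add_smul_add]; exact hab ε h3.1 (by linarith [h3.2])) (by
        have htr : Tendsto (fun q' => q' + (t - ε) • v) (𝓝 q) (𝓝 (q + (t - ε) • v)) :=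
          (show ContinuousAt (fun q' => q' + (t - ε) • v) q by fun_prop)
        refine htr.frequently ((hfr.and_eventually (htr.eventually (hsg.and (tube hV' hseg)))).mono ?_)
        rintro _ ⟨⟨x', hx', rfl⟩, h6, h7⟩
        obtain ⟨s, hs, h8⟩ := exists_zero_seg (by linarith [h3.1])
          (fun s hs => (hV's (h7 s hs)).2.1.continuousAt) h6
        have h9 := hV's (h7 s hs)
        obtain ⟨x'', hx'', e⟩ := UpI.up hX hn hπ b hσ hx' (t - ε + s) (by linarith [h4.2, hs.1])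
          (by rw [← add_smul_add]; exact h9.2.2.2)
        rw [← add_smul_add] at e
        have h10 : r₁ (π x'') = 0 := by rw [e]; exact (hRr _ h9.2.2.1).1 (h9.1.2 h8)
        rcases hcov x'' (UpI.mem hX hn hπ b hσ hx'').1 (e ▸ h9.2.2.1) with ⟨τ, hτ, e'⟩ | ⟨h, -⟩ | ⟨h, -⟩
        · exact ⟨τ, hτ, s, hs, by rwa [← e, e']⟩
        · exact absurd h10 h.ne'
        · exact absurd h10 (neg_pos.1 h).ne)
    have h6 := h5 ε ⟨h3.1.le, by linarith [h3.1]⟩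
    rw [add_smul_add, sub_add_cancel] at h6
    exact htΩ ⟨_, h6, ((h₀ τ hτ).2 _ hpV).2⟩
  · obtain ⟨V, hV, hpV, 𝒮, -, h𝒮, hcov⟩ := hc.pp _ hR
    obtain ⟨ε, h1, h2⟩ := ((seg_small ((hV.inter b.oW).mem_nhds ⟨hpV, hpW⟩) v).and
      (Ioo_mem_nhdsGT (sub_pos.2 htS))).exists
    obtain ⟨x', hx', e⟩ := hab ε h2.1 (by linarith [h2.2])
    rw [← add_smul_add] at e
    obtain ⟨τ, hτ, e'⟩ := hcov x' (UpI.mem hX hn hπ b hσ hx').1.1 (e ▸ (h1 ε (abs_of_pos h2.1).le).1)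
    refine htΩ ⟨_, UpI.step V τ _ ε hV (h𝒮 τ hτ) h2.1.le
      (fun s hs => h1 s ((abs_of_nonneg hs.1).trans_le hs.2)) (by rwa [← e, e']), ((h𝒮 τ hτ).2 _ hpV).2⟩

theorem UpI.upSet (hc : ACls X π R C) : UpSet X π r η v W {x | UpI X π v W T σ x} := by
  refine ⟨fun x hx => UpI.mem hX hn hπ b hσ hx, fun x hx x' hx' e => UpI.inj hX hn hπ b hσ hx' x hx e,
    fun x hx => UpI.opn hX hn hπ b hσ hx, fun x hx hxW hη hcl => ?_, fun x hx s hs h => ?_⟩
  · have hfr : ∃ᶠ y in 𝓝[X] x, UpI X π v W T σ y := by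
      rw [frequently_nhdsWithin_iff]
      exact (mem_closure_iff_frequently.1 hcl).mono fun y hy => ⟨hy, (UpI.mem hX hn hπ b hσ hy).1.1⟩
    have hπc : Tendsto π (𝓝[X] x) (𝓝 (π x)) := hπ.continuousOn x hx.1
    obtain ⟨S, hS0, hS⟩ := b.up _ hxW
    have hA := UpI.above hX hn hπ b hσ hc hxW hη (hπc.frequently (hfr.mono fun y hy => ⟨y, hy, rfl⟩)) hS
    obtain ⟨O, V, τ, hO, hV, hxO, -, hτ, -, h⟩ := Reg.sec hX hn hπ hx univ_mem
    obtain ⟨h1, h2⟩ := h x ⟨hx.1, hxO⟩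
    obtain ⟨ε, h3, h4⟩ := ((seg_small ((hV.inter b.oW).mem_nhds ⟨h1, hxW⟩) v).and
      self_mem_nhdsWithin).exists
    have h4' : 0 < ε := h4
    have h5 : 0 ≤ min ε S := le_min h4'.le hS0
    obtain ⟨τ', hτ', -, h6⟩ := UpI.core hX hn hπ b hσ hV (finite_singleton τ) (by simpa using hτ) h5
      (p := π x) (fun t ht => h3 t ((abs_of_nonneg ht.1).trans_le (ht.2.trans (min_le_left _ _)))) (by
        rcases le_total ε S with h | h
        · rw [min_eq_left h]; exact hA ε ⟨h4', h⟩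
        · rw [min_eq_right h]; exact ⟨_, UpI.base _ hS, (hσ.2 _ hS).2⟩) (by
        refine hπc.frequently ((hfr.and_eventually (inter_mem_nhdsWithin X (hO.mem_nhds hxO))).mono
          fun y hy => ⟨τ, rfl, 0, left_mem_Icc.2 h5, ?_⟩)
        rw [zero_smul, add_zero, (h y hy.2).2]
        exact hy.1)
    have h7 := h6 0 (left_mem_Icc.2 h5)
    rwa [zero_smul, add_zero, mem_singleton_iff.1 hτ', h2] at h7
  · exact UpI.up hX hn hπ b hσ hx s hs h

end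

theorem Box.exists_up (hX : Mfd n X) (hn : Module.finrank ℂ F = n) (hc : ACls X π R C) (b : Box R r η C v W T) :
    ∃ 𝒰 : Set (Set E), 𝒰.Finite ∧ (∀ U ∈ 𝒰, UpSet X π r η v W U) ∧
      ∀ x ∈ X, π x ∈ W → η (π x) = 0 → 0 < r (π x) → ∃ U ∈ 𝒰, x ∈ U := by
  obtain ⟨T', hT', hcv, hne, hTT, hR⟩ := b.sl
  obtain ⟨𝒮, hf, h𝒮, hcov⟩ := hc.pp.sections hX hn hc.an hT' (hcv.contractibleSpace hne) hR
  refine ⟨(fun σ => {x | UpI X π v W T σ x}) '' 𝒮, hf.image _, ?_, fun x hx hxW hη hr => ?_⟩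
  · rintro _ ⟨σ, hσ, rfl⟩
    exact UpI.upSet hX hn hc.an b ((h𝒮 σ hσ).mono hTT) hc
  obtain ⟨S, hS0, hS⟩ := b.up _ hxW
  have hW : ∀ t ∈ Icc 0 S, π x + t • v ∈ W := fun t ht => b.conv _ hxW S (b.TW hS) t (mem_uIcc.2 (Or.inl ht))
  set A : Set ℝ := {t | ∀ x' ∈ X, π x' = π x + t • v → ∃ σ ∈ 𝒮, UpI X π v W T σ x'} with hA
  have key : ∀ t ∈ Icc 0 S, ∃ δ > 0, ∀ t' ∈ Icc 0 S, ∀ t'' ∈ Icc 0 S, |t' - t| ≤ δ → |t'' - t| ≤ δ →
      t' ∈ A → t'' ∈ A := by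
    intro t ht
    have hR0 : R (π x + t • v) ≠ 0 := fun h => by
      have h1 := (b.loc _ (hW t ht) h).1 (by rw [b.inv, hη])
      rcases ht.1.eq_or_lt with h2 | h2
      · rw [← h2, zero_smul, add_zero] at h1; exact hr.ne' h1
      · linarith [b.mono _ hxW t h2 (hW t ht)]
    obtain ⟨V, hV, hpV, 𝒮', -, h𝒮', hcov'⟩ := hc.pp _ hR0
    obtain ⟨δ, h1, h2⟩ := ((seg_small ((hV.inter b.oW).mem_nhds ⟨hpV, hW t ht⟩) v).and
      self_mem_nhdsWithin).exists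
    have h3 : ∀ s, |s - t| ≤ δ → π x + s • v ∈ V ∩ W := fun s hs => by
      have := h1 _ hs
      rwa [add_smul_add, add_sub_cancel] at this
    refine ⟨δ, h2, fun t' _ t'' _ a1 a2 hA' x' hx' e => ?_⟩
    obtain ⟨τ, hτ, e'⟩ := hcov' x' hx' (e ▸ (h3 _ a2).1)
    obtain ⟨σ, hσ, hu⟩ := hA' (τ (π x + t' • v)) ((h𝒮' τ hτ).2 _ (h3 _ a1).1).1 ((h𝒮' τ hτ).2 _ (h3 _ a1).1).2
    refine ⟨σ, hσ, ?_⟩
    rw [← e', e]
    obtain ⟨a3, a4⟩ := abs_le.1 a1
    obtain ⟨a5, a6⟩ := abs_le.1 a2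
    rcases le_total t'' t' with hle | hle
    · refine UpI.step V τ _ (t' - t'') hV (h𝒮' τ hτ) (by linarith) (fun s hs => ?_)
        (by rwa [add_smul_add, add_sub_cancel])
      rw [add_smul_add]
      exact h3 _ (abs_le.2 ⟨by linarith [hs.1], by linarith [hs.2]⟩)
    · have := hu.lift hX hn hc.an b ((h𝒮 σ hσ).mono hTT) hV (h𝒮' τ hτ) _ (t'' - t') rfl (by linarith)
        (fun s hs => by
          rw [add_smul_add]
          exact h3 _ (abs_le.2 ⟨by linarith [hs.1], by linarith [hs.2]⟩))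
      rwa [add_smul_add, add_sub_cancel] at this
  have hnb : ∀ t δ : ℝ, 0 < δ → ∀ᶠ s in 𝓝[Icc 0 S] t, s ∈ Icc 0 S ∧ |s - t| ≤ δ := fun t δ hδ =>
    eventually_mem_nhdsWithin.and (mem_nhdsWithin_of_mem_nhds (by
      filter_upwards [closedBall_mem_nhds t hδ] with s hs
      rwa [mem_closedBall, Real.dist_eq] at hs))
  have hall : Icc 0 S ⊆ A := by
    refine clopen_top isPreconnected_Icc ⟨S, right_mem_Icc.2 hS0, fun x' hx' e => ?_⟩
      (fun t ht hA' => ?_) fun t ht hfr => ?_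
    · obtain ⟨σ, hσ, e'⟩ := hcov x' hx' (e ▸ hTT hS)
      exact ⟨σ, hσ, e' ▸ UpI.base _ (e ▸ hS)⟩
    · obtain ⟨δ, hδ, h⟩ := key t ht
      exact (hnb t δ hδ).mono fun s hs => h t ht s hs.1 (by simpa using hδ.le) hs.2 hA'
    · obtain ⟨δ, hδ, h⟩ := key t ht
      obtain ⟨s, h1, h2⟩ := (hfr.and_eventually (hnb t δ hδ)).exists
      exact h s h2.1 t ht h2.2 (by simpa using hδ.le) h1
  obtain ⟨σ, hσ, h⟩ := hall (left_mem_Icc.2 hS0) x hx (by simp)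
  exact ⟨_, ⟨σ, hσ, rfl⟩, h⟩

end Crest.Agent.R264
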